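import Mathlib

/-!
# S0326, helper56: orthonormal frame with vanishing diagonal for a traceless operator
-/

set_option autoImplicit false

namespace Crest.Agent.S0326.Helper56

open Real

local notation "E2" => EuclideanSpace ℝ (Fin 2)

/-- Two orthonormal vectors of the plane form an orthonormal basis. -/
theorem exists_basis_of_pair (u w : E2) (hu : ‖u‖ = 1) (hw : ‖w‖ = 1) (huw : inner ℝ u w = 0) :
    ∃ b : OrthonormalBasis (Fin 2) ℝ E2, b 0 = u ∧ b 1 = w := by
  have hon : Orthonormal ℝ ![u, w] := by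
    rw [orthonormal_iff_ite]
    intro i j
    fin_cases i <;> fin_cases j
    · simp [hu]
    · simpa using huw
    · simpa [real_inner_comm] using huw
    · simp [hw]
  have hsp : ⊤ ≤ Submodule.span ℝ (Set.range ![u, w]) := by
    have := hon.linearIndependent.span_eq_top_of_card_eq_finrank' (by simp)
    rw [this]
  refine ⟨OrthonormalBasis.mk hon hsp, ?_, ?_⟩ <;> simp

/-- A traceless operator on the Euclidean plane has an orthonormal frame in which both diagonal
entries vanish. -/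
theorem exists_frame (N : E2 →L[ℝ] E2) (htr : LinearMap.trace ℝ _ N.toLinearMap = 0) :
    ∃ b : OrthonormalBasis (Fin 2) ℝ E2,
      inner ℝ (b 0) (N (b 0)) = 0 ∧ inner ℝ (b 1) (N (b 1)) = 0 := by
  obtain ⟨b₀⟩ : Nonempty (OrthonormalBasis (Fin 2) ℝ E2) := ⟨EuclideanSpace.basisFun (Fin 2) ℝ⟩
  have h00 : inner ℝ (b₀ 0) (b₀ 0) = (1 : ℝ) := by
    rw [real_inner_self_eq_norm_sq, b₀.orthonormal.1 0]; norm_num
  have h11 : inner ℝ (b₀ 1) (b₀ 1) = (1 : ℝ) := by
    rw [real_inner_self_eq_norm_sq, b₀.orthonormal.1 1]; norm_num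
  have h01 : inner ℝ (b₀ 0) (b₀ 1) = (0 : ℝ) := b₀.orthonormal.2 (by decide)
  have h10 : inner ℝ (b₀ 1) (b₀ 0) = (0 : ℝ) := b₀.orthonormal.2 (by decide)
  have htr0 : inner ℝ (b₀ 0) (N (b₀ 0)) + inner ℝ (b₀ 1) (N (b₀ 1)) = (0 : ℝ) := by
    have := LinearMap.trace_eq_sum_inner N.toLinearMap b₀
    rw [htr, Fin.sum_univ_two] at this
    simpa using this.symm
  -- the quadratic form along the rotating unit vector
  set q : ℝ → ℝ := fun θ =>
    inner ℝ (cos θ • b₀ 0 + sin θ • b₀ 1) (N (cos θ • b₀ 0 + sin θ • b₀ 1)) with hq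
  have hqc : Continuous q := by
    simp only [hq]
    fun_prop
  have hq0 : q 0 = inner ℝ (b₀ 0) (N (b₀ 0)) := by simp [hq]
  have hq1 : q (π / 2) = inner ℝ (b₀ 1) (N (b₀ 1)) := by simp [hq]
  have hmem : (0 : ℝ) ∈ Set.uIcc (q 0) (q (π / 2)) := by
    rw [hq0, hq1, Set.mem_uIcc]
    rcases le_total (inner ℝ (b₀ 0) (N (b₀ 0))) 0 with h | h
    · left; constructor <;> linarith
    · right; constructor <;> linarith
  obtain ⟨θ, -, hθ⟩ := intermediate_value_uIcc hqc.continuousOn hmem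
  have hcs : cos θ ^ 2 + sin θ ^ 2 = 1 := cos_sq_add_sin_sq θ
  obtain ⟨b, hb0, hb1⟩ := exists_basis_of_pair (cos θ • b₀ 0 + sin θ • b₀ 1)
    (-sin θ • b₀ 0 + cos θ • b₀ 1)
    (by
      rw [← sq_eq_sq₀ (norm_nonneg _) zero_le_one, ← real_inner_self_eq_norm_sq]
      simp only [inner_add_left, inner_add_right, inner_smul_left, inner_smul_right, h00, h11,
        h01, h10]
      simp only [RCLike.conj_to_real]
      nlinarith)
    (by
      rw [← sq_eq_sq₀ (norm_nonneg _) zero_le_one, ← real_inner_self_eq_norm_sq]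
      simp only [inner_add_left, inner_add_right, inner_smul_left, inner_smul_right, h00, h11,
        h01, h10]
      simp only [RCLike.conj_to_real]
      nlinarith)
    (by
      simp only [inner_add_left, inner_add_right, inner_smul_left, inner_smul_right, h00, h11,
        h01, h10]
      simp only [RCLike.conj_to_real]
      ring)
  refine ⟨b, ?_, ?_⟩
  · rw [hb0]; exact hθ
  · have := LinearMap.trace_eq_sum_inner N.toLinearMap b
    rw [htr, Fin.sum_univ_two] at this
    have h0 : inner ℝ (b 0) (N (b 0)) = (0 : ℝ) := by rw [hb0]; exact hθ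
    simp only [ContinuousLinearMap.coe_coe] at this
    rw [h0] at this
    linarith

/-- In a frame with vanishing diagonal, the operator swaps the frame vectors up to scalars,
and the product of the off-diagonal entries is minus the determinant. -/
theorem frame_facts (N : E2 →L[ℝ] E2) (b : OrthonormalBasis (Fin 2) ℝ E2)
    (h0 : inner ℝ (b 0) (N (b 0)) = 0) (h1 : inner ℝ (b 1) (N (b 1)) = 0) :
    N (b 0) = inner ℝ (b 1) (N (b 0)) • b 1 ∧ N (b 1) = inner ℝ (b 0) (N (b 1)) • b 0 ∧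
    inner ℝ (b 0) (N (b 1)) * inner ℝ (b 1) (N (b 0)) = - LinearMap.det N.toLinearMap ∧
    |inner ℝ (b 0) (N (b 1))| ≤ ‖N‖ ∧ |inner ℝ (b 1) (N (b 0))| ≤ ‖N‖ := by
  have hn0 : ‖b 0‖ = 1 := b.orthonormal.1 0
  have hn1 : ‖b 1‖ = 1 := b.orthonormal.1 1
  refine ⟨?_, ?_, ?_, ?_, ?_⟩
  · have := b.sum_repr' (N (b 0))
    rw [Fin.sum_univ_two, h0] at this
    simpa using this.symm
  · have := b.sum_repr' (N (b 1))
    rw [Fin.sum_univ_two, h1] at this
    simpa using this.symm
  · rw [← LinearMap.det_toMatrix b.toBasis, Matrix.det_fin_two]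
    simp only [LinearMap.toMatrix_apply, OrthonormalBasis.coe_toBasis_repr_apply,
      OrthonormalBasis.repr_apply_apply, OrthonormalBasis.coe_toBasis,
      ContinuousLinearMap.coe_coe, h0, h1]
    ring
  · calc |inner ℝ (b 0) (N (b 1))| ≤ ‖b 0‖ * ‖N (b 1)‖ := abs_real_inner_le_norm _ _
      _ ≤ 1 * (‖N‖ * ‖b 1‖) := by
          rw [hn0]; exact mul_le_mul_of_nonneg_left (N.le_opNorm _) zero_le_one
      _ = ‖N‖ := by rw [hn1]; ring
  · calc |inner ℝ (b 1) (N (b 0))| ≤ ‖b 1‖ * ‖N (b 0)‖ := abs_real_inner_le_norm _ _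
      _ ≤ 1 * (‖N‖ * ‖b 0‖) := by
          rw [hn1]; exact mul_le_mul_of_nonneg_left (N.le_opNorm _) zero_le_one
      _ = ‖N‖ := by rw [hn0]; ring

end Crest.Agent.S0326.Helper56
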