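import Mathlib

/-!
# S0326, helper56: glue lemmas for the global assembly

* `Jfun h g = 1 / √(1 + g₀² + h² g₁²)`: positivity, `≤ 1`, Lipschitz bound, continuity;
* `to_fin`, `to_fin_fintype`: reindexing a finite family of tiles by `Fin k`.
-/

set_option autoImplicit false

namespace Crest.Agent.S0326.Helper56

open Set

local notation "E2" => EuclideanSpace ℝ (Fin 2)

/-- The cost density `J(g) = 1 / √(1 + g₀² + h² g₁²)` (abbreviation, unfolds by `rfl`). -/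
noncomputable abbrev Jfun (h : ℝ) (g : E2) : ℝ :=
  1 / Real.sqrt (1 + (g 0) ^ 2 + h ^ 2 * (g 1) ^ 2)

theorem Jden_ge_one (h : ℝ) (g : E2) : 1 ≤ Real.sqrt (1 + (g 0) ^ 2 + h ^ 2 * (g 1) ^ 2) := by
  rw [Real.one_le_sqrt]
  nlinarith [sq_nonneg (g 0), sq_nonneg (h * g 1)]

theorem Jfun_pos (h : ℝ) (g : E2) : 0 < 1 / Real.sqrt (1 + (g 0) ^ 2 + h ^ 2 * (g 1) ^ 2) :=
  one_div_pos.mpr (lt_of_lt_of_le zero_lt_one (Jden_ge_one h g))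

theorem Jfun_le_one (h : ℝ) (g : E2) : 1 / Real.sqrt (1 + (g 0) ^ 2 + h ^ 2 * (g 1) ^ 2) ≤ 1 := by
  rw [div_le_one (lt_of_lt_of_le zero_lt_one (Jden_ge_one h g))]
  exact Jden_ge_one h g

/-- The denominator of `J` is `max 1 h`-Lipschitz. -/
theorem Jden_lipschitz (h : ℝ) (hh : 0 < h) (g g' : E2) :
    |Real.sqrt (1 + (g 0) ^ 2 + h ^ 2 * (g 1) ^ 2) - Real.sqrt (1 + (g' 0) ^ 2 + h ^ 2 * (g' 1) ^ 2)|
      ≤ max 1 h * ‖g - g'‖ := by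
  have key : ∀ u v : EuclideanSpace ℝ (Fin 3), |‖u‖ - ‖v‖| ≤ ‖u - v‖ := fun u v =>
    abs_norm_sub_norm_le u v
  have h1 := key !₂[1, g 0, h * g 1] !₂[1, g' 0, h * g' 1]
  have e1 : ‖(!₂[1, g 0, h * g 1] : EuclideanSpace ℝ (Fin 3))‖
      = Real.sqrt (1 + (g 0) ^ 2 + h ^ 2 * (g 1) ^ 2) := by
    rw [EuclideanSpace.norm_eq]
    congr 1
    simp [Fin.sum_univ_three]
    ring
  have e2 : ‖(!₂[1, g' 0, h * g' 1] : EuclideanSpace ℝ (Fin 3))‖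
      = Real.sqrt (1 + (g' 0) ^ 2 + h ^ 2 * (g' 1) ^ 2) := by
    rw [EuclideanSpace.norm_eq]
    congr 1
    simp [Fin.sum_univ_three]
    ring
  have e3 : ‖(!₂[1, g 0, h * g 1] : EuclideanSpace ℝ (Fin 3)) - !₂[1, g' 0, h * g' 1]‖
      = Real.sqrt ((g 0 - g' 0) ^ 2 + h ^ 2 * (g 1 - g' 1) ^ 2) := by
    rw [EuclideanSpace.norm_eq]
    congr 1
    simp [Fin.sum_univ_three]
    ring
  have e4 : ‖g - g'‖ = Real.sqrt ((g 0 - g' 0) ^ 2 + (g 1 - g' 1) ^ 2) := by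
    rw [EuclideanSpace.norm_eq]
    congr 1
    simp [Fin.sum_univ_two]
  rw [e1, e2, e3] at h1
  refine le_trans h1 ?_
  have hM : (0 : ℝ) ≤ max 1 h := le_trans zero_le_one (le_max_left _ _)
  rw [e4, ← Real.sqrt_sq hM, ← Real.sqrt_mul (sq_nonneg _)]
  apply Real.sqrt_le_sqrt
  have hM1 : (1 : ℝ) ≤ (max 1 h) ^ 2 := by
    have : (1 : ℝ) ≤ max 1 h := le_max_left _ _
    nlinarith
  have hMh : h ^ 2 ≤ (max 1 h) ^ 2 := by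
    have : h ≤ max 1 h := le_max_right _ _
    nlinarith
  nlinarith [sq_nonneg (g 0 - g' 0), sq_nonneg (g 1 - g' 1)]

/-- `J` is `max 1 h`-Lipschitz. -/
theorem Jfun_lipschitz (h : ℝ) (hh : 0 < h) (g g' : E2) :
    |1 / Real.sqrt (1 + (g 0) ^ 2 + h ^ 2 * (g 1) ^ 2)
        - 1 / Real.sqrt (1 + (g' 0) ^ 2 + h ^ 2 * (g' 1) ^ 2)| ≤ max 1 h * ‖g - g'‖ := by
  have h1 := Jden_ge_one h g
  have h2 := Jden_ge_one h g'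
  have h3 := Jden_lipschitz h hh g g'
  set n := Real.sqrt (1 + (g 0) ^ 2 + h ^ 2 * (g 1) ^ 2) with hn
  set n' := Real.sqrt (1 + (g' 0) ^ 2 + h ^ 2 * (g' 1) ^ 2) with hn'
  have hnpos : 0 < n := lt_of_lt_of_le zero_lt_one h1
  have hn'pos : 0 < n' := lt_of_lt_of_le zero_lt_one h2
  have e : 1 / n - 1 / n' = (n' - n) / (n * n') := by
    field_simp
  rw [e, abs_div, abs_of_pos (mul_pos hnpos hn'pos), div_le_iff₀ (mul_pos hnpos hn'pos)]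
  have h4 : |n' - n| ≤ max 1 h * ‖g - g'‖ := by rw [abs_sub_comm]; exact h3
  have h5 : 0 ≤ max 1 h * ‖g - g'‖ := le_trans (abs_nonneg _) h4
  have h6 : 1 ≤ n * n' := by nlinarith
  nlinarith

/-- Upper-bound form of the Lipschitz estimate. -/
theorem Jfun_le_add (h : ℝ) (hh : 0 < h) (g g' : E2) :
    1 / Real.sqrt (1 + (g 0) ^ 2 + h ^ 2 * (g 1) ^ 2)
      ≤ 1 / Real.sqrt (1 + (g' 0) ^ 2 + h ^ 2 * (g' 1) ^ 2) + max 1 h * ‖g - g'‖ := by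
  have := (abs_le.mp (Jfun_lipschitz h hh g g')).2
  linarith

theorem Jfun_continuous (h : ℝ) :
    Continuous fun g : E2 => 1 / Real.sqrt (1 + (g 0) ^ 2 + h ^ 2 * (g 1) ^ 2) := by
  have hc : Continuous fun g : E2 => Real.sqrt (1 + (g 0) ^ 2 + h ^ 2 * (g 1) ^ 2) := by
    fun_prop
  exact continuous_const.div hc (fun g => (lt_of_lt_of_le zero_lt_one (Jden_ge_one h g)).ne')

/-- Reindexing a finite family of tiles (indexed by a finset) by `Fin k`. -/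
theorem to_fin {α : Type*} (S : Finset α) (c a b g : α → E2) (h : ℝ) (Eset : Set (ℝ × E2))
    (κ : ℝ)
    (h1 : ∀ i ∈ S, a i ≠ 0 ∧ ‖b i‖ = ‖a i‖ ∧ inner ℝ (a i) (b i) = 0)
    (h2 : Eset ⊆ ⋃ i ∈ S, {z : ℝ × E2 | ∃ x ∈ Set.Icc (0 : ℝ) 1, ∃ y ∈ Set.Icc (0 : ℝ) 1,
      z.2 = c i + x • a i + y • b i + z.1 • g i})
    (h3 : ∑ i ∈ S, ‖a i‖ ^ 2 / Real.sqrt (1 + (g i 0) ^ 2 + h ^ 2 * (g i 1) ^ 2) ≤ κ) :
    ∃ (k : ℕ) (c' a' b' g' : Fin k → E2),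
      (∀ i, a' i ≠ 0 ∧ ‖b' i‖ = ‖a' i‖ ∧ inner ℝ (a' i) (b' i) = 0) ∧
      Eset ⊆ ⋃ i, {z : ℝ × E2 | ∃ x ∈ Set.Icc (0 : ℝ) 1, ∃ y ∈ Set.Icc (0 : ℝ) 1,
        z.2 = c' i + x • a' i + y • b' i + z.1 • g' i} ∧
      ∑ i, ‖a' i‖ ^ 2 / Real.sqrt (1 + (g' i 0) ^ 2 + h ^ 2 * (g' i 1) ^ 2) ≤ κ := by
  classical
  let e : Fin S.card ≃ S := S.equivFin.symm
  refine ⟨S.card, fun i => c (e i), fun i => a (e i), fun i => b (e i), fun i => g (e i),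
    fun i => h1 (e i) (e i).2, ?_, ?_⟩
  · intro z hz
    obtain ⟨i, hi, hzi⟩ := Set.mem_iUnion₂.mp (h2 hz)
    refine Set.mem_iUnion.mpr ⟨e.symm ⟨i, hi⟩, ?_⟩
    simpa using hzi
  · have : ∑ i : Fin S.card, ‖a (e i)‖ ^ 2 / Real.sqrt (1 + (g (e i) 0) ^ 2 + h ^ 2 * (g (e i) 1) ^ 2)
        = ∑ i ∈ S, ‖a i‖ ^ 2 / Real.sqrt (1 + (g i 0) ^ 2 + h ^ 2 * (g i 1) ^ 2) := by
      rw [Equiv.sum_comp e (fun i : S => ‖a i‖ ^ 2 / Real.sqrt (1 + (g i 0) ^ 2 + h ^ 2 * (g i 1) ^ 2))]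
      exact Finset.sum_coe_sort S
        (fun i => ‖a i‖ ^ 2 / Real.sqrt (1 + (g i 0) ^ 2 + h ^ 2 * (g i 1) ^ 2))
    rw [this]
    exact h3

/-- Reindexing a finite family of tiles (indexed by a fintype) by `Fin k`. -/
theorem to_fin_fintype {ι : Type*} [Fintype ι] (c a b g : ι → E2) (h : ℝ) (Eset : Set (ℝ × E2))
    (κ : ℝ)
    (h1 : ∀ i, a i ≠ 0 ∧ ‖b i‖ = ‖a i‖ ∧ inner ℝ (a i) (b i) = 0)
    (h2 : Eset ⊆ ⋃ i, {z : ℝ × E2 | ∃ x ∈ Set.Icc (0 : ℝ) 1, ∃ y ∈ Set.Icc (0 : ℝ) 1,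
      z.2 = c i + x • a i + y • b i + z.1 • g i})
    (h3 : ∑ i, ‖a i‖ ^ 2 / Real.sqrt (1 + (g i 0) ^ 2 + h ^ 2 * (g i 1) ^ 2) ≤ κ) :
    ∃ (k : ℕ) (c' a' b' g' : Fin k → E2),
      (∀ i, a' i ≠ 0 ∧ ‖b' i‖ = ‖a' i‖ ∧ inner ℝ (a' i) (b' i) = 0) ∧
      Eset ⊆ ⋃ i, {z : ℝ × E2 | ∃ x ∈ Set.Icc (0 : ℝ) 1, ∃ y ∈ Set.Icc (0 : ℝ) 1,
        z.2 = c' i + x • a' i + y • b' i + z.1 • g' i} ∧
      ∑ i, ‖a' i‖ ^ 2 / Real.sqrt (1 + (g' i 0) ^ 2 + h ^ 2 * (g' i 1) ^ 2) ≤ κ := by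
  refine to_fin Finset.univ c a b g h Eset κ (fun i _ => h1 i) ?_ h3
  intro z hz
  obtain ⟨i, hzi⟩ := Set.mem_iUnion.mp (h2 hz)
  exact Set.mem_iUnion₂.mpr ⟨i, Finset.mem_univ i, hzi⟩

end Crest.Agent.S0326.Helper56
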