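import Mathlib

/-!
# S0326, helper56: the lattice covering lemma (pure `ℝ`/`ℤ`)

For reals `c d` with `0 ≤ c * d < 1`, the unit squares translated by the lattice
`(I + [[0,d],[c,0]]) ℤ²` cover the plane.
-/

set_option autoImplicit false

namespace Crest.Agent.S0326.Helper56

/-- Lattice covering lemma: for `0 ≤ c * d < 1` and any `x y`, there are integers `k l` with
`(x - k) + d (y - l) ∈ [0,1]` and `c (x - k) + (y - l) ∈ [0,1]`. -/
theorem lattice (c d x y : ℝ) (hcd0 : 0 ≤ c * d) (hcd1 : c * d < 1) :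
    ∃ k l : ℤ, 0 ≤ (x - k) + d * (y - l) ∧ (x - k) + d * (y - l) ≤ 1 ∧
      0 ≤ c * (x - k) + (y - l) ∧ c * (x - k) + (y - l) ≤ 1 := by
  have h1 : 0 < 1 - c * d := by linarith
  -- the row index as a function of the column index
  have hr0 : ∀ k : ℤ, 0 ≤ y + c * (x - k) - (⌊y + c * (x - k)⌋ : ℤ) := fun k => by
    have := Int.floor_le (y + c * (x - k)); linarith
  have hr1 : ∀ k : ℤ, y + c * (x - k) - (⌊y + c * (x - k)⌋ : ℤ) ≤ 1 := fun k => by
    have := Int.lt_floor_add_one (y + c * (x - k)); linarith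
  have hFeq : ∀ k : ℤ, (x - k) + d * (y - (⌊y + c * (x - k)⌋ : ℤ))
      = (1 - c * d) * (x - k) + d * (y + c * (x - k) - (⌊y + c * (x - k)⌋ : ℤ)) := fun k => by
    ring
  have hdr : ∀ k : ℤ, |d * (y + c * (x - k) - (⌊y + c * (x - k)⌋ : ℤ))| ≤ |d| := fun k => by
    rw [abs_mul]
    have : |y + c * (x - k) - (⌊y + c * (x - k)⌋ : ℤ)| ≤ 1 := by
      rw [abs_le]; exact ⟨by linarith [hr0 k], hr1 k⟩
    calc |d| * |y + c * (x - k) - (⌊y + c * (x - k)⌋ : ℤ)| ≤ |d| * 1 :=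
          mul_le_mul_of_nonneg_left this (abs_nonneg d)
      _ = |d| := mul_one _
  have hstep : ∀ k : ℤ, (x - ((k - 1 : ℤ) : ℝ)) + d * (y - (⌊y + c * (x - ((k - 1 : ℤ) : ℝ))⌋ : ℤ)) - 1
      ≤ (x - k) + d * (y - (⌊y + c * (x - k)⌋ : ℤ)) := by
    intro k
    have hd : 0 ≤ d * (((⌊y + c * (x - ((k - 1 : ℤ) : ℝ))⌋ : ℤ) : ℝ) - (⌊y + c * (x - k)⌋ : ℤ)) := by
      rcases mul_nonneg_iff.mp hcd0 with ⟨hc, hd⟩ | ⟨hc, hd⟩
      · have h : ⌊y + c * (x - k)⌋ ≤ ⌊y + c * (x - ((k - 1 : ℤ) : ℝ))⌋ := by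
          apply Int.floor_le_floor
          push_cast; nlinarith
        have h' : ((⌊y + c * (x - k)⌋ : ℤ) : ℝ) ≤ (⌊y + c * (x - ((k - 1 : ℤ) : ℝ))⌋ : ℤ) := by
          exact_mod_cast h
        exact mul_nonneg hd (by linarith)
      · have h : ⌊y + c * (x - ((k - 1 : ℤ) : ℝ))⌋ ≤ ⌊y + c * (x - k)⌋ := by
          apply Int.floor_le_floor
          push_cast; nlinarith
        have h' : ((⌊y + c * (x - ((k - 1 : ℤ) : ℝ))⌋ : ℤ) : ℝ) ≤ (⌊y + c * (x - k)⌋ : ℤ) := by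
          exact_mod_cast h
        exact mul_nonneg_of_nonpos_of_nonpos hd (by linarith)
    push_cast at hd ⊢
    linarith
  obtain ⟨k, hk, hmin⟩ := Int.exists_least_of_bdd
    (P := fun k : ℤ => (x - k) + d * (y - (⌊y + c * (x - k)⌋ : ℤ)) ≤ 1)
    ⟨⌊x - (1 + |d|) / (1 - c * d)⌋, by
      intro z hz
      rw [hFeq z] at hz
      have h2 := hdr z
      rw [abs_le] at h2
      have h3 : (1 - c * d) * (x - z) ≤ 1 + |d| := by linarith
      have h4 : x - z ≤ (1 + |d|) / (1 - c * d) := by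
        rw [le_div_iff₀ h1]; linarith
      have h5 : ((⌊x - (1 + |d|) / (1 - c * d)⌋ : ℤ) : ℝ) ≤ z := by
        have := Int.floor_le (x - (1 + |d|) / (1 - c * d)); linarith
      exact_mod_cast h5⟩
    ⟨⌈x + |d| / (1 - c * d)⌉, by
      show (x - (⌈x + |d| / (1 - c * d)⌉ : ℤ)) + d * (y - (⌊y + c * (x - (⌈x + |d| / (1 - c * d)⌉ : ℤ))⌋ : ℤ)) ≤ 1
      rw [hFeq]
      have h2 := hdr ⌈x + |d| / (1 - c * d)⌉
      rw [abs_le] at h2
      have h3 : x + |d| / (1 - c * d) ≤ (⌈x + |d| / (1 - c * d)⌉ : ℤ) := Int.le_ceil _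
      have h4 : |d| / (1 - c * d) ≤ (⌈x + |d| / (1 - c * d)⌉ : ℤ) - x := by linarith
      have h5 : |d| ≤ (1 - c * d) * ((⌈x + |d| / (1 - c * d)⌉ : ℤ) - x) := by
        rw [div_le_iff₀ h1] at h4; linarith
      linarith⟩
  refine ⟨k, ⌊y + c * (x - k)⌋, ?_, hk, ?_, ?_⟩
  · have hk1 : ¬ ((x - ((k - 1 : ℤ) : ℝ)) + d * (y - (⌊y + c * (x - ((k - 1 : ℤ) : ℝ))⌋ : ℤ)) ≤ 1) := by
      intro h
      have := hmin (k - 1) h
      omega
    have := hstep k
    linarith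
  · have := hr0 k; linarith
  · have := hr1 k; linarith

/-- The remainders of the lattice lemma control the distance to the lattice point. -/
theorem lattice_dist (c d u v κ B : ℝ) (hκ : 0 < κ) (hcd : κ ≤ 1 - c * d)
    (hc : |c| ≤ B) (hd : |d| ≤ B)
    (h1 : 0 ≤ u + d * v) (h2 : u + d * v ≤ 1) (h3 : 0 ≤ c * u + v) (h4 : c * u + v ≤ 1) :
    |u| ≤ (1 + B) / κ ∧ |v| ≤ (1 + B) / κ := by
  have hα : |u + d * v| ≤ 1 := abs_le.mpr ⟨by linarith, h2⟩
  have hβ : |c * u + v| ≤ 1 := abs_le.mpr ⟨by linarith, h4⟩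
  have hB : 0 ≤ B := le_trans (abs_nonneg c) hc
  have hpos : 0 < 1 - c * d := lt_of_lt_of_le hκ hcd
  constructor
  · rw [le_div_iff₀ hκ]
    have e1 : (1 - c * d) * u = (u + d * v) - d * (c * u + v) := by ring
    have e2 : |(1 - c * d) * u| ≤ 1 + B := by
      rw [e1]
      calc |(u + d * v) - d * (c * u + v)| ≤ |u + d * v| + |d * (c * u + v)| := abs_sub _ _
        _ = |u + d * v| + |d| * |c * u + v| := by rw [abs_mul]
        _ ≤ 1 + B * 1 := add_le_add hα (mul_le_mul hd hβ (abs_nonneg _) hB)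
        _ = 1 + B := by ring
    rw [abs_mul, abs_of_pos hpos] at e2
    nlinarith [abs_nonneg u]
  · rw [le_div_iff₀ hκ]
    have e1 : (1 - c * d) * v = (c * u + v) - c * (u + d * v) := by ring
    have e2 : |(1 - c * d) * v| ≤ 1 + B := by
      rw [e1]
      calc |(c * u + v) - c * (u + d * v)| ≤ |c * u + v| + |c * (u + d * v)| := abs_sub _ _
        _ = |c * u + v| + |c| * |u + d * v| := by rw [abs_mul]
        _ ≤ 1 + B * 1 := add_le_add hβ (mul_le_mul hc hα (abs_nonneg _) hB)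
        _ = 1 + B := by ring
    rw [abs_mul, abs_of_pos hpos] at e2
    nlinarith [abs_nonneg v]

end Crest.Agent.S0326.Helper56
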