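import Crest.Agent.Lib.S0326.Helper56Lattice
import Crest.Agent.Lib.S0326.Helper56Frame

/-!
# S0326, helper56: the local covering lemma (pure algebra, no measure theory)

For a traceless operator `N` on the Euclidean plane with `κ ≤ 1 + L² det N`, `det N ≤ 0`, there is
an orthonormal frame `e, f` such that for every scale `r > 0`, margin `m ≥ 0`, point `q`, error
`w` with `‖w‖ ≤ m` and time `|s| ≤ L`, the point `q + s N q + w` lies in the sheared square tile
with corner `(r i - m) e + (r j - m) f`, sides `(r + 2m) e`, `(r + 2m) f` and velocity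
`N (r i e + r j f)` for some integers `i, j` with `‖q - (r i e + r j f)‖ ≤ 2 (1 + L B) / κ · r`.
-/

set_option autoImplicit false

namespace Crest.Agent.S0326.Helper56

local notation "E2" => EuclideanSpace ℝ (Fin 2)

theorem local_cover (L : ℝ) (hL : 0 < L) (N : E2 →L[ℝ] E2)
    (htr : LinearMap.trace ℝ _ N.toLinearMap = 0) (hdet0 : LinearMap.det N.toLinearMap ≤ 0)
    (κ : ℝ) (hκ : 0 < κ) (hdet : κ ≤ 1 + L ^ 2 * LinearMap.det N.toLinearMap)
    (B : ℝ) (hB : ‖N‖ ≤ B) :
    ∃ e f : E2, ‖e‖ = 1 ∧ ‖f‖ = 1 ∧ inner ℝ e f = 0 ∧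
      ∀ (r : ℝ), 0 < r → ∀ (m : ℝ), 0 ≤ m → ∀ (q w : E2) (s : ℝ), |s| ≤ L → ‖w‖ ≤ m →
        ∃ (i j : ℤ) (x y : ℝ), x ∈ Set.Icc (0 : ℝ) 1 ∧ y ∈ Set.Icc (0 : ℝ) 1 ∧
          q + s • N q + w = ((r * i - m) • e + (r * j - m) • f) + x • ((r + 2 * m) • e)
            + y • ((r + 2 * m) • f) + s • N ((r * i) • e + (r * j) • f) ∧
          ‖q - ((r * i) • e + (r * j) • f)‖ ≤ (2 * (1 + L * B) / κ) * r := by
  obtain ⟨b, hb0, hb1⟩ := exists_frame N htr
  obtain ⟨hN0, hN1, hβγ, hβ, hγ⟩ := frame_facts N b hb0 hb1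
  set β : ℝ := inner ℝ (b 0) (N (b 1)) with hβdef
  set γ : ℝ := inner ℝ (b 1) (N (b 0)) with hγdef
  have hn0 : ‖b 0‖ = 1 := b.orthonormal.1 0
  have hn1 : ‖b 1‖ = 1 := b.orthonormal.1 1
  have hdecomp : ∀ v : E2, v = inner ℝ (b 0) v • b 0 + inner ℝ (b 1) v • b 1 := fun v => by
    have := b.sum_repr' v
    rw [Fin.sum_univ_two] at this
    exact this.symm
  refine ⟨b 0, b 1, hn0, hn1, b.orthonormal.2 (by decide), ?_⟩
  intro r hr m hm q w s hs hw
  set X : ℝ := inner ℝ (b 0) q with hX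
  set Y : ℝ := inner ℝ (b 1) q with hY
  set we : ℝ := inner ℝ (b 0) w with hwe
  set wf : ℝ := inner ℝ (b 1) w with hwf
  have hwe_abs : |we| ≤ m := by
    calc |we| ≤ ‖b 0‖ * ‖w‖ := abs_real_inner_le_norm _ _
      _ = ‖w‖ := by rw [hn0, one_mul]
      _ ≤ m := hw
  have hwf_abs : |wf| ≤ m := by
    calc |wf| ≤ ‖b 1‖ * ‖w‖ := abs_real_inner_le_norm _ _
      _ = ‖w‖ := by rw [hn1, one_mul]
      _ ≤ m := hw
  have hs2 : s ^ 2 ≤ L ^ 2 := by
    have := abs_le.mp hs
    nlinarith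
  have hBnn : 0 ≤ B := le_trans (norm_nonneg N) hB
  -- the lattice lemma with c = s γ, d = s β
  have hcd_eq : (s * γ) * (s * β) = - (s ^ 2 * LinearMap.det N.toLinearMap) := by
    have : β * γ = - LinearMap.det N.toLinearMap := hβγ
    calc (s * γ) * (s * β) = s ^ 2 * (β * γ) := by ring
      _ = - (s ^ 2 * LinearMap.det N.toLinearMap) := by rw [this]; ring
  have hcd0 : 0 ≤ (s * γ) * (s * β) := by
    rw [hcd_eq]
    have : s ^ 2 * LinearMap.det N.toLinearMap ≤ 0 :=
      mul_nonpos_of_nonneg_of_nonpos (sq_nonneg s) hdet0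
    linarith
  have hcdκ : κ ≤ 1 - (s * γ) * (s * β) := by
    rw [hcd_eq]
    have : L ^ 2 * LinearMap.det N.toLinearMap ≤ s ^ 2 * LinearMap.det N.toLinearMap :=
      mul_le_mul_of_nonpos_right hs2 hdet0
    linarith
  have hcd1 : (s * γ) * (s * β) < 1 := by linarith
  obtain ⟨k, l, h1, h2, h3, h4⟩ := lattice (s * γ) (s * β) (X / r) (Y / r) hcd0 hcd1
  have hc_abs : |s * γ| ≤ L * B := by
    rw [abs_mul]
    exact mul_le_mul hs (le_trans hγ hB) (abs_nonneg _) hL.le
  have hd_abs : |s * β| ≤ L * B := by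
    rw [abs_mul]
    exact mul_le_mul hs (le_trans hβ hB) (abs_nonneg _) hL.le
  obtain ⟨hu, hv⟩ := lattice_dist (s * γ) (s * β) (X / r - k) (Y / r - l) κ (L * B) hκ hcdκ
    hc_abs hd_abs h1 h2 h3 h4
  have hrne : r ≠ 0 := hr.ne'
  have hr2m : 0 < r + 2 * m := by linarith
  -- numerators
  have e1 : r * ((X / r - k) + s * β * (Y / r - l)) = (X - r * k) + s * β * (Y - r * l) := by
    field_simp
  have e2 : r * (s * γ * (X / r - k) + (Y / r - l)) = s * γ * (X - r * k) + (Y - r * l) := by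
    field_simp
  have n1lo : 0 ≤ (X - r * k) + s * β * (Y - r * l) := by
    rw [← e1]; exact mul_nonneg hr.le h1
  have n1hi : (X - r * k) + s * β * (Y - r * l) ≤ r := by
    rw [← e1]
    calc r * ((X / r - k) + s * β * (Y / r - l)) ≤ r * 1 := mul_le_mul_of_nonneg_left h2 hr.le
      _ = r := mul_one r
  have n2lo : 0 ≤ s * γ * (X - r * k) + (Y - r * l) := by
    rw [← e2]; exact mul_nonneg hr.le h3
  have n2hi : s * γ * (X - r * k) + (Y - r * l) ≤ r := by
    rw [← e2]
    calc r * (s * γ * (X / r - k) + (Y / r - l)) ≤ r * 1 := mul_le_mul_of_nonneg_left h4 hr.le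
      _ = r := mul_one r
  have hwe' := abs_le.mp hwe_abs
  have hwf' := abs_le.mp hwf_abs
  refine ⟨k, l, ((X - r * k) + s * β * (Y - r * l) + m + we) / (r + 2 * m),
    (s * γ * (X - r * k) + (Y - r * l) + m + wf) / (r + 2 * m), ?_, ?_, ?_, ?_⟩
  · constructor
    · apply div_nonneg _ hr2m.le; linarith
    · rw [div_le_one hr2m]; linarith
  · constructor
    · apply div_nonneg _ hr2m.le; linarith
    · rw [div_le_one hr2m]; linarith
  · have hq : q = X • b 0 + Y • b 1 := hdecomp q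
    have hwd : w = we • b 0 + wf • b 1 := hdecomp w
    have hx' : ((X - r * k) + s * β * (Y - r * l) + m + we) / (r + 2 * m) * (r + 2 * m)
        = (X - r * k) + s * β * (Y - r * l) + m + we := div_mul_cancel₀ _ hr2m.ne'
    have hy' : (s * γ * (X - r * k) + (Y - r * l) + m + wf) / (r + 2 * m) * (r + 2 * m)
        = s * γ * (X - r * k) + (Y - r * l) + m + wf := div_mul_cancel₀ _ hr2m.ne'
    rw [smul_smul, smul_smul, hx', hy']
    conv_lhs => rw [hq, hwd]
    simp only [map_add, map_smul, hN0, hN1]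
    module
  · have hq : q = X • b 0 + Y • b 1 := hdecomp q
    have hdiff : q - ((r * k) • b 0 + (r * l) • b 1) = (X - r * k) • b 0 + (Y - r * l) • b 1 := by
      conv_lhs => rw [hq]
      module
    rw [hdiff]
    have hXk : |X - r * k| ≤ r * ((1 + L * B) / κ) := by
      have : X - r * k = r * (X / r - k) := by field_simp
      rw [this, abs_mul, abs_of_pos hr]
      exact mul_le_mul_of_nonneg_left hu hr.le
    have hYl : |Y - r * l| ≤ r * ((1 + L * B) / κ) := by
      have : Y - r * l = r * (Y / r - l) := by field_simp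
      rw [this, abs_mul, abs_of_pos hr]
      exact mul_le_mul_of_nonneg_left hv hr.le
    calc ‖(X - r * k) • b 0 + (Y - r * l) • b 1‖
        ≤ ‖(X - r * k) • b 0‖ + ‖(Y - r * l) • b 1‖ := norm_add_le _ _
      _ = |X - r * k| + |Y - r * l| := by
          rw [norm_smul, norm_smul, hn0, hn1, mul_one, mul_one, Real.norm_eq_abs,
            Real.norm_eq_abs]
      _ ≤ r * ((1 + L * B) / κ) + r * ((1 + L * B) / κ) := add_le_add hXk hYl
      _ = (2 * (1 + L * B) / κ) * r := by ring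

end Crest.Agent.S0326.Helper56
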