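import Mathlib

set_option autoImplicit false
open MeasureTheory
open scoped ENNReal

namespace Crest.Agent.S0326.Helper58

/-- Uniform C¹ modulus on a compact set. -/
theorem c1_modulus (D : Set (EuclideanSpace ℝ (Fin 2))) (hD : IsCompact D)
    (V : EuclideanSpace ℝ (Fin 2) → EuclideanSpace ℝ (Fin 2)) (U : Set (EuclideanSpace ℝ (Fin 2)))
    (hU : IsOpen U) (hDU : D ⊆ U) (hV : ContDiffOn ℝ 1 V U) (ω : ℝ) (hω : 0 < ω) :
    ∃ δ₀ > 0, ∀ p ∈ D, ∀ p' ∈ D, ‖p' - p‖ ≤ δ₀ →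
      ‖V p' - V p - fderiv ℝ V p (p' - p)‖ ≤ ω * ‖p' - p‖ := by
  obtain ⟨ρ, hρ, hρU⟩ := hD.exists_cthickening_subset_open hU hDU
  have hD' : IsCompact (Metric.cthickening ρ D) := hD.cthickening
  have hcont : ContinuousOn (fderiv ℝ V) U := hV.continuousOn_fderiv_of_isOpen hU le_rfl
  have hucont : UniformContinuousOn (fderiv ℝ V) (Metric.cthickening ρ D) :=
    hD'.uniformContinuousOn_of_continuous (hcont.mono hρU)
  rw [Metric.uniformContinuousOn_iff_le] at hucont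
  obtain ⟨δ₁, hδ₁, hδ⟩ := hucont ω hω
  refine ⟨min ρ δ₁, lt_min hρ hδ₁, ?_⟩
  intro p hp p' hp' hpp'
  have hball : Metric.closedBall p (min ρ δ₁) ⊆ Metric.cthickening ρ D :=
    (Metric.closedBall_subset_closedBall (min_le_left _ _)).trans
      (Metric.closedBall_subset_cthickening hp ρ)
  have hpD' : p ∈ Metric.cthickening ρ D := Metric.self_subset_cthickening D hp
  refine Convex.norm_image_sub_le_of_norm_fderiv_le' (𝕜 := ℝ) (s := Metric.closedBall p (min ρ δ₁))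
    (f := V) (φ := fderiv ℝ V p) (C := ω) ?_ ?_ (convex_closedBall p _)
    (Metric.mem_closedBall_self (le_min hρ.le hδ₁.le)) ?_
  · intro x hx
    have hxU : x ∈ U := hρU (hball hx)
    exact (hV.differentiableOn one_ne_zero).differentiableAt (hU.mem_nhds hxU)
  · intro x hx
    have h1 := hδ x (hball hx) p hpD' ((Metric.mem_closedBall.1 hx).trans (min_le_right _ _))
    rwa [dist_eq_norm] at h1
  · rw [Metric.mem_closedBall, dist_eq_norm]
    exact hpp'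

/-- Bound on the derivative and a uniform gap for the determinant. -/
theorem exists_bounds (D : Set (EuclideanSpace ℝ (Fin 2))) (hD : IsCompact D)
    (V : EuclideanSpace ℝ (Fin 2) → EuclideanSpace ℝ (Fin 2)) (U : Set (EuclideanSpace ℝ (Fin 2)))
    (hU : IsOpen U) (hDU : D ⊆ U) (hV : ContDiffOn ℝ 1 V U) (L : ℝ) (hL : 0 < L)
    (hdet : ∀ p ∈ D, -(L ^ 2)⁻¹ < LinearMap.det (fderiv ℝ V p).toLinearMap) :
    ∃ B κ : ℝ, 0 ≤ B ∧ 0 < κ ∧ (∀ p ∈ D, ‖fderiv ℝ V p‖ ≤ B) ∧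
      ∀ p ∈ D, κ ≤ 1 + L ^ 2 * LinearMap.det (fderiv ℝ V p).toLinearMap := by
  have hcont : ContinuousOn (fderiv ℝ V) D :=
    (hV.continuousOn_fderiv_of_isOpen hU le_rfl).mono hDU
  have hL2 : 0 < L ^ 2 := by positivity
  have hpos : ∀ p ∈ D, 0 < 1 + L ^ 2 * LinearMap.det (fderiv ℝ V p).toLinearMap := by
    intro p hp
    have h1 := hdet p hp
    have h2 : L ^ 2 * (-(L ^ 2)⁻¹) < L ^ 2 * LinearMap.det (fderiv ℝ V p).toLinearMap :=
      mul_lt_mul_of_pos_left h1 hL2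
    have h3 : L ^ 2 * (-(L ^ 2)⁻¹) = -1 := by
      field_simp
    linarith
  rcases D.eq_empty_or_nonempty with hDe | hDne
  · exact ⟨0, 1, le_rfl, one_pos, by simp [hDe], by simp [hDe]⟩
  · obtain ⟨B, hB⟩ := (hD.image_of_continuousOn hcont).isBounded.exists_norm_le
    have hdc : ContinuousOn
        (fun p => 1 + L ^ 2 * LinearMap.det (fderiv ℝ V p).toLinearMap) D := by
      have h1 : ContinuousOn (fun p => (fderiv ℝ V p).det) D :=
        ContinuousLinearMap.continuous_det.comp_continuousOn hcont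
      exact continuousOn_const.add (continuousOn_const.mul h1)
    obtain ⟨p₀, hp₀, hmin⟩ := hD.exists_isMinOn hDne hdc
    refine ⟨max B 0, _, le_max_right _ _, hpos p₀ hp₀, ?_, ?_⟩
    · intro p hp
      exact (hB _ ⟨p, hp, rfl⟩).trans (le_max_left _ _)
    · intro p hp
      exact hmin hp

/-- The weight `J` is Lipschitz (one-sided form). -/
theorem J_le (h : ℝ) (hh : 0 < h) (g g' : EuclideanSpace ℝ (Fin 2)) :
    1 / Real.sqrt (1 + (g 0) ^ 2 + h ^ 2 * (g 1) ^ 2) ≤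
      1 / Real.sqrt (1 + (g' 0) ^ 2 + h ^ 2 * (g' 1) ^ 2) + (1 + h) * ‖g - g'‖ := by
  set A := Real.sqrt (1 + (g 0) ^ 2 + h ^ 2 * (g 1) ^ 2) with hA
  set A' := Real.sqrt (1 + (g' 0) ^ 2 + h ^ 2 * (g' 1) ^ 2) with hA'
  have hq : (0:ℝ) ≤ 1 + (g 0) ^ 2 + h ^ 2 * (g 1) ^ 2 := by positivity
  have hq' : (0:ℝ) ≤ 1 + (g' 0) ^ 2 + h ^ 2 * (g' 1) ^ 2 := by positivity
  have hA1 : 1 ≤ A := by
    rw [hA, Real.one_le_sqrt]
    nlinarith [sq_nonneg (g 0), sq_nonneg (h * g 1)]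
  have hA'1 : 1 ≤ A' := by
    rw [hA', Real.one_le_sqrt]
    nlinarith [sq_nonneg (g' 0), sq_nonneg (h * g' 1)]
  have hAsq : A ^ 2 = 1 + (g 0) ^ 2 + h ^ 2 * (g 1) ^ 2 := Real.sq_sqrt hq
  have hA'sq : A' ^ 2 = 1 + (g' 0) ^ 2 + h ^ 2 * (g' 1) ^ 2 := Real.sq_sqrt hq'
  have hd0 : |g 0 - g' 0| ≤ ‖g - g'‖ := by
    have h2 := PiLp.norm_apply_le (p := 2) (g - g') 0
    simpa using h2
  have hd1 : |g 1 - g' 1| ≤ ‖g - g'‖ := by
    have h2 := PiLp.norm_apply_le (p := 2) (g - g') 1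
    simpa using h2
  -- |A' - A| ≤ |g 0 - g' 0| + h |g 1 - g' 1|
  have hg0 : |g 0| ≤ A := by
    rw [hA]; apply Real.abs_le_sqrt; nlinarith [sq_nonneg (h * g 1)]
  have hg1 : h * |g 1| ≤ A := by
    rw [hA]
    have : h * |g 1| = |h * g 1| := by rw [abs_mul, abs_of_pos hh]
    rw [this]; apply Real.abs_le_sqrt; nlinarith [sq_nonneg (g 0)]
  have hg0' : |g' 0| ≤ A' := by
    rw [hA']; apply Real.abs_le_sqrt; nlinarith [sq_nonneg (h * g' 1)]
  have hg1' : h * |g' 1| ≤ A' := by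
    rw [hA']
    have : h * |g' 1| = |h * g' 1| := by rw [abs_mul, abs_of_pos hh]
    rw [this]; apply Real.abs_le_sqrt; nlinarith [sq_nonneg (g' 0)]
  have hdiff : A' - A ≤ |g 0 - g' 0| + h * |g 1 - g' 1| := by
    have hsum : 0 < A + A' := by linarith
    have h1 : (A' - A) * (A + A') = (g' 0 - g 0) * (g' 0 + g 0) + h ^ 2 * ((g' 1 - g 1) * (g' 1 + g 1)) := by
      have : (A' - A) * (A + A') = A' ^ 2 - A ^ 2 := by ring
      rw [this, hAsq, hA'sq]; ring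
    have h2 : (g' 0 - g 0) * (g' 0 + g 0) ≤ |g 0 - g' 0| * (A + A') := by
      have e1 : (g' 0 - g 0) * (g' 0 + g 0) ≤ |g' 0 - g 0| * |g' 0 + g 0| := by
        rw [← abs_mul]; exact le_abs_self _
      have e2 : |g' 0 + g 0| ≤ A + A' := (abs_add_le _ _).trans (by linarith)
      rw [abs_sub_comm (g 0)]
      exact e1.trans (mul_le_mul_of_nonneg_left e2 (abs_nonneg _))
    have h3 : h ^ 2 * ((g' 1 - g 1) * (g' 1 + g 1)) ≤ h * |g 1 - g' 1| * (A + A') := by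
      have e1 : (g' 1 - g 1) * (g' 1 + g 1) ≤ |g' 1 - g 1| * |g' 1 + g 1| := by
        rw [← abs_mul]; exact le_abs_self _
      have e2 : h * |g' 1 + g 1| ≤ A + A' := by
        have := abs_add_le (g' 1) (g 1)
        nlinarith
      rw [abs_sub_comm (g 1)]
      have e3 : h ^ 2 * ((g' 1 - g 1) * (g' 1 + g 1)) ≤ h ^ 2 * (|g' 1 - g 1| * |g' 1 + g 1|) :=
        mul_le_mul_of_nonneg_left e1 (by positivity)
      have e4 : h ^ 2 * (|g' 1 - g 1| * |g' 1 + g 1|) = h * |g' 1 - g 1| * (h * |g' 1 + g 1|) := by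
        ring
      rw [e4] at e3
      exact e3.trans (mul_le_mul_of_nonneg_left e2 (by positivity))
    have h4 : (A' - A) * (A + A') ≤ (|g 0 - g' 0| + h * |g 1 - g' 1|) * (A + A') := by
      rw [h1]; nlinarith
    exact le_of_mul_le_mul_right h4 hsum
  have hdiff2 : A' - A ≤ (1 + h) * ‖g - g'‖ := by
    have : h * |g 1 - g' 1| ≤ h * ‖g - g'‖ := mul_le_mul_of_nonneg_left hd1 hh.le
    linarith
  have hApos : 0 < A := by linarith
  have hA'pos : 0 < A' := by linarith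
  have hnn : 0 ≤ (1 + h) * ‖g - g'‖ := by positivity
  rw [div_le_iff₀ hApos]
  have : 1 / A' * A ≥ 1 - (1 + h) * ‖g - g'‖ := by
    rw [ge_iff_le, one_div, inv_mul_eq_div, le_div_iff₀ hA'pos]
    nlinarith
  nlinarith
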