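import Mathlib

set_option autoImplicit false
open MeasureTheory
open scoped ENNReal

namespace Crest.Agent.S0326.Helper58

/-- Transfer of volume from `EuclideanSpace ℝ (Fin 2)` to `ℝ × ℝ`. -/
lemma volume_eq_prod (S : Set (ℝ × ℝ)) :
    volume {x : EuclideanSpace ℝ (Fin 2) | (x 0, x 1) ∈ S} = (volume : Measure (ℝ × ℝ)) S := by
  have h1 := EuclideanSpace.volume_preserving_symm_measurableEquiv_toLp (Fin 2)
  have h2 := volume_preserving_finTwoArrow ℝ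
  have h3 : MeasurePreserving
      (⇑((MeasurableEquiv.toLp 2 (Fin 2 → ℝ)).symm.trans MeasurableEquiv.finTwoArrow))
      volume volume := h2.comp h1
  have h4 := h3.measure_preimage_equiv S
  rw [← h4]
  rfl

lemma measurable_coords :
    Measurable (fun x : EuclideanSpace ℝ (Fin 2) => (x 0, x 1)) := by
  have h0 : Continuous (fun x : EuclideanSpace ℝ (Fin 2) => x 0) :=
    (EuclideanSpace.proj (0 : Fin 2)).continuous
  have h1 : Continuous (fun x : EuclideanSpace ℝ (Fin 2) => x 1) :=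
    (EuclideanSpace.proj (1 : Fin 2)).continuous
  exact (h0.prodMk h1).measurable

/-- half-open grid cell of side `δ` with integer index `z` -/
def cell (δ : ℝ) (z : ℤ × ℤ) : Set (EuclideanSpace ℝ (Fin 2)) :=
  {x | (x 0, x 1) ∈ Set.Ico ((z.1 : ℝ) * δ) ((z.1 + 1) * δ) ×ˢ
    Set.Ico ((z.2 : ℝ) * δ) ((z.2 + 1) * δ)}

lemma mem_cell {δ : ℝ} {z : ℤ × ℤ} {x : EuclideanSpace ℝ (Fin 2)} :
    x ∈ cell δ z ↔ ((z.1 : ℝ) * δ ≤ x 0 ∧ x 0 < (z.1 + 1) * δ) ∧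
      ((z.2 : ℝ) * δ ≤ x 1 ∧ x 1 < (z.2 + 1) * δ) := by
  simp [cell]

lemma measurableSet_cell (δ : ℝ) (z : ℤ × ℤ) : MeasurableSet (cell δ z) :=
  measurable_coords (measurableSet_Ico.prod measurableSet_Ico)

lemma volume_cell (δ : ℝ) (hδ : 0 < δ) (z : ℤ × ℤ) :
    volume (cell δ z) = ENNReal.ofReal (δ ^ 2) := by
  unfold cell
  rw [volume_eq_prod, Measure.volume_eq_prod, Measure.prod_prod, Real.volume_Ico, Real.volume_Ico,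
    ← ENNReal.ofReal_mul (by nlinarith)]
  congr 1; ring

/-- index of the cell containing a point -/
noncomputable def cellIdx (δ : ℝ) (x : EuclideanSpace ℝ (Fin 2)) : ℤ × ℤ :=
  (⌊x 0 / δ⌋, ⌊x 1 / δ⌋)

lemma mem_cell_iff_idx {δ : ℝ} (hδ : 0 < δ) {z : ℤ × ℤ} {x : EuclideanSpace ℝ (Fin 2)} :
    x ∈ cell δ z ↔ cellIdx δ x = z := by
  rw [mem_cell, cellIdx, Prod.ext_iff]
  simp only [Int.floor_eq_iff, le_div_iff₀ hδ, div_lt_iff₀ hδ]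

lemma mem_cell_idx {δ : ℝ} (hδ : 0 < δ) (x : EuclideanSpace ℝ (Fin 2)) :
    x ∈ cell δ (cellIdx δ x) := (mem_cell_iff_idx hδ).2 rfl

lemma cell_disjoint {δ : ℝ} (hδ : 0 < δ) {z z' : ℤ × ℤ} (hne : z ≠ z') :
    Disjoint (cell δ z) (cell δ z') := by
  rw [Set.disjoint_left]
  intro x hx hx'
  exact hne (((mem_cell_iff_idx hδ).1 hx).symm.trans ((mem_cell_iff_idx hδ).1 hx'))

lemma abs_apply_le (x : EuclideanSpace ℝ (Fin 2)) (i : Fin 2) : |x i| ≤ ‖x‖ := by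
  have h2 := PiLp.norm_apply_le (p := 2) x i
  simpa using h2

lemma norm_le_two_mul {x : EuclideanSpace ℝ (Fin 2)} {d : ℝ} (h0 : |x 0| ≤ d) (h1 : |x 1| ≤ d) :
    ‖x‖ ≤ 2 * d := by
  have hd : 0 ≤ d := (abs_nonneg _).trans h0
  rw [EuclideanSpace.norm_eq, Fin.sum_univ_two]
  apply Real.sqrt_le_iff.2
  refine ⟨by positivity, ?_⟩
  simp only [Real.norm_eq_abs, sq_abs]
  have e0 : x 0 ^ 2 ≤ d ^ 2 := sq_le_sq' (abs_le.1 h0).1 (abs_le.1 h0).2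
  have e1 : x 1 ^ 2 ≤ d ^ 2 := sq_le_sq' (abs_le.1 h1).1 (abs_le.1 h1).2
  nlinarith

lemma norm_sub_le_of_mem_cell {δ : ℝ} {z : ℤ × ℤ} {x y : EuclideanSpace ℝ (Fin 2)}
    (hx : x ∈ cell δ z) (hy : y ∈ cell δ z) : ‖x - y‖ ≤ 2 * δ := by
  obtain ⟨⟨a0, b0⟩, ⟨a1, b1⟩⟩ := mem_cell.1 hx
  obtain ⟨⟨c0, d0⟩, ⟨c1, d1⟩⟩ := mem_cell.1 hy
  apply norm_le_two_mul
  · have : (x - y) 0 = x 0 - y 0 := rfl
    rw [this, abs_le]; constructor <;> linarith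
  · have : (x - y) 1 = x 1 - y 1 := rfl
    rw [this, abs_le]; constructor <;> linarith

/-- closed axis-parallel box: the cell enlarged by `ρ` -/
def box (δ ρ : ℝ) (z : ℤ × ℤ) : Set (EuclideanSpace ℝ (Fin 2)) :=
  {x | (x 0, x 1) ∈ Set.Icc ((z.1 : ℝ) * δ - ρ) ((z.1 + 1) * δ + ρ) ×ˢ
    Set.Icc ((z.2 : ℝ) * δ - ρ) ((z.2 + 1) * δ + ρ)}

lemma volume_box (δ ρ : ℝ) (hδ : 0 ≤ δ + 2 * ρ) (z : ℤ × ℤ) :
    volume (box δ ρ z) = ENNReal.ofReal ((δ + 2 * ρ) ^ 2) := by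
  unfold box
  rw [volume_eq_prod, Measure.volume_eq_prod, Measure.prod_prod, Real.volume_Icc, Real.volume_Icc,
    ← ENNReal.ofReal_mul (by nlinarith)]
  congr 1; ring

lemma closedBall_subset_box {δ ρ₁ ρ₂ : ℝ} {z : ℤ × ℤ} {p c : EuclideanSpace ℝ (Fin 2)}
    (hp : p ∈ cell δ z) (hc : ‖c - p‖ ≤ ρ₁) :
    Metric.closedBall c ρ₂ ⊆ box δ (ρ₁ + ρ₂) z := by
  intro y hy
  have hyc : ‖y - c‖ ≤ ρ₂ := by rwa [Metric.mem_closedBall, dist_eq_norm] at hy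
  have hyp : ‖y - p‖ ≤ ρ₁ + ρ₂ := by
    calc ‖y - p‖ = ‖(y - c) + (c - p)‖ := by congr 1; abel
      _ ≤ ‖y - c‖ + ‖c - p‖ := norm_add_le _ _
      _ ≤ ρ₁ + ρ₂ := by linarith
  have h0 : |y 0 - p 0| ≤ ρ₁ + ρ₂ := (abs_apply_le (y - p) 0).trans hyp
  have h1 : |y 1 - p 1| ≤ ρ₁ + ρ₂ := (abs_apply_le (y - p) 1).trans hyp
  obtain ⟨⟨a0, b0⟩, ⟨a1, b1⟩⟩ := mem_cell.1 hp
  rw [abs_le] at h0 h1
  simp only [box, Set.mem_ofPred_eq, Set.mem_prod, Set.mem_Icc]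
  refine ⟨⟨?_, ?_⟩, ⟨?_, ?_⟩⟩ <;> linarith [h0.1, h0.2, h1.1, h1.2]

/-- the finite set of cells meeting a compact set -/
lemma exists_cells (D : Set (EuclideanSpace ℝ (Fin 2))) (hD : IsCompact D) (δ : ℝ) (hδ : 0 < δ) :
    ∃ Z : Finset (ℤ × ℤ), ∀ z, z ∈ Z ↔ (D ∩ cell δ z).Nonempty := by
  obtain ⟨R, hR⟩ := hD.isBounded.exists_norm_le
  have hfin : (cellIdx δ '' D).Finite := by
    apply Set.Finite.subset (Finset.finite_toSet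
      (Finset.Icc (-(⌈R / δ⌉ + 1)) (⌈R / δ⌉ + 1) ×ˢ Finset.Icc (-(⌈R / δ⌉ + 1)) (⌈R / δ⌉ + 1)))
    rintro _ ⟨x, hx, rfl⟩
    have h3 : R / δ ≤ ⌈R / δ⌉ := Int.le_ceil _
    have key : ∀ i : Fin 2, -(⌈R / δ⌉ + 1) ≤ ⌊x i / δ⌋ ∧ ⌊x i / δ⌋ ≤ ⌈R / δ⌉ + 1 := by
      intro i
      have h1 : (⌊x i / δ⌋ : ℝ) ≤ x i / δ := Int.floor_le _
      have h2 : x i / δ < ⌊x i / δ⌋ + 1 := Int.lt_floor_add_one _
      have h4 : |x i / δ| ≤ R / δ := by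
        rw [abs_div, abs_of_pos hδ]
        exact div_le_div_of_nonneg_right ((abs_apply_le x i).trans (hR x hx)) hδ.le
      rw [abs_le] at h4
      constructor
      · have : ((-(⌈R / δ⌉ + 1) : ℤ) : ℝ) ≤ (⌊x i / δ⌋ : ℝ) := by
          push_cast; linarith [h4.1]
        exact_mod_cast this
      · have : (⌊x i / δ⌋ : ℝ) ≤ ((⌈R / δ⌉ + 1 : ℤ) : ℝ) := by
          push_cast; linarith [h4.2]
        exact_mod_cast this
    simp only [cellIdx, Finset.coe_product, Finset.coe_Icc, Set.mem_prod, Set.mem_Icc]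
    exact ⟨key 0, key 1⟩
  refine ⟨hfin.toFinset, fun z => ?_⟩
  rw [Set.Finite.mem_toFinset]
  constructor
  · rintro ⟨x, hx, rfl⟩
    exact ⟨x, hx, mem_cell_idx hδ x⟩
  · rintro ⟨x, hx, hxz⟩
    exact ⟨x, hx, (mem_cell_iff_idx hδ).1 hxz⟩

end Crest.Agent.S0326.Helper58
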