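import Mathlib
import Crest.Agent.Lib.S0326.Helper58Grid

set_option autoImplicit false
open MeasureTheory
open scoped ENNReal

namespace Crest.Agent.S0326.Helper58

lemma cell_subset_cthickening {D : Set (EuclideanSpace ℝ (Fin 2))} {δ : ℝ} {z : ℤ × ℤ}
    {P : EuclideanSpace ℝ (Fin 2)} (hP : P ∈ D ∩ cell δ z) :
    cell δ z ⊆ Metric.cthickening (2 * δ) D := by
  intro x hx
  refine Metric.mem_cthickening_of_dist_le x P (2 * δ) D hP.1 ?_
  rw [dist_eq_norm]
  exact norm_sub_le_of_mem_cell hx hP.2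

lemma volume_cell_ne_top (δ : ℝ) (hδ : 0 < δ) (z : ℤ × ℤ) : volume (cell δ z) ≠ ⊤ := by
  rw [volume_cell δ hδ z]; exact ENNReal.ofReal_ne_top

lemma real_volume_cell (δ : ℝ) (hδ : 0 < δ) (z : ℤ × ℤ) : volume.real (cell δ z) = δ ^ 2 := by
  rw [measureReal_def, volume_cell δ hδ z, ENNReal.toReal_ofReal (by positivity)]

/-- The cells meeting `D` have total area at most the area of the `1`-thickening of `D`. -/
theorem card_mul_le (D : Set (EuclideanSpace ℝ (Fin 2))) (hD : IsCompact D) (δ : ℝ) (hδ : 0 < δ)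
    (hδ1 : δ ≤ 1 / 2) (Z : Finset (ℤ × ℤ)) (P : ℤ × ℤ → EuclideanSpace ℝ (Fin 2))
    (hP : ∀ z ∈ Z, P z ∈ D ∩ cell δ z) :
    (Z.card : ℝ) * δ ^ 2 ≤ volume.real (Metric.cthickening 1 D) := by
  have hfin : volume (Metric.cthickening 1 D) ≠ ⊤ := hD.cthickening.measure_lt_top.ne
  have h1 : volume.real (⋃ z ∈ Z, cell δ z) = ∑ z ∈ Z, volume.real (cell δ z) :=
    measureReal_biUnion_finset (fun z _ z' _ hne => cell_disjoint hδ hne)
      (fun z _ => measurableSet_cell δ z) (fun z _ => volume_cell_ne_top δ hδ z)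
  have h2 : (⋃ z ∈ Z, cell δ z) ⊆ Metric.cthickening 1 D := by
    intro x hx
    simp only [Set.mem_iUnion] at hx
    obtain ⟨z, hz, hxz⟩ := hx
    exact Metric.cthickening_mono (by linarith) D (cell_subset_cthickening (hP z hz) hxz)
  calc (Z.card : ℝ) * δ ^ 2 = ∑ z ∈ Z, volume.real (cell δ z) := by
        simp [real_volume_cell δ hδ]
    _ = volume.real (⋃ z ∈ Z, cell δ z) := h1.symm
    _ ≤ volume.real (Metric.cthickening 1 D) := measureReal_mono h2 hfin

/-- Upper Riemann sums over grid cells meeting a compact set are bounded by the integral,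
up to `ε`, for fine grids. -/
theorem riemann_sum_le (D : Set (EuclideanSpace ℝ (Fin 2))) (hD : IsCompact D)
    (F : EuclideanSpace ℝ (Fin 2) → ℝ) (hF : ContinuousOn F D)
    (hF0 : ∀ p ∈ D, 0 ≤ F p) (hF1 : ∀ p ∈ D, F p ≤ 1) (ε : ℝ) (hε : 0 < ε) :
    ∃ δ₀ > 0, ∀ δ, 0 < δ → δ ≤ δ₀ → ∀ (Z : Finset (ℤ × ℤ))
      (P : ℤ × ℤ → EuclideanSpace ℝ (Fin 2)),
      (∀ z ∈ Z, P z ∈ D ∩ cell δ z) → ∑ z ∈ Z, δ ^ 2 * F (P z) ≤ (∫ p in D, F p) + ε := by
  have hDm : MeasurableSet D := hD.measurableSet
  have hDfin : volume D ≠ ⊤ := hD.measure_lt_top.ne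
  set vD := volume.real D with hvD
  have hvD0 : 0 ≤ vD := measureReal_nonneg
  set κ := ε / (2 * (vD + 1)) with hκ
  have hκpos : 0 < κ := by positivity
  have hκvD : κ * vD ≤ ε / 2 := by
    rw [hκ, div_mul_eq_mul_div, div_le_div_iff₀ (by positivity) (by norm_num)]; nlinarith
  -- uniform continuity
  have huc := hD.uniformContinuousOn_of_continuous hF
  rw [Metric.uniformContinuousOn_iff_le] at huc
  obtain ⟨δ₁, hδ₁, hδ₁F⟩ := huc κ hκpos
  -- thickening
  have htend := tendsto_measure_cthickening_of_isCompact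
    (μ := (volume : Measure (EuclideanSpace ℝ (Fin 2)))) hD
  have hlt : volume D < volume D + ENNReal.ofReal (ε / 2) :=
    ENNReal.lt_add_right hDfin (by simp [hε])
  have hev := htend.eventually (gt_mem_nhds hlt)
  obtain ⟨t, ht, hball⟩ := Metric.eventually_nhds_iff.1 hev
  have hδ₂ : volume (Metric.cthickening (t / 2) D) < volume D + ENNReal.ofReal (ε / 2) := by
    apply hball; rw [Real.dist_eq, sub_zero, abs_of_pos (by positivity)]; linarith
  have hth_fin : volume (Metric.cthickening (t / 2) D) ≠ ⊤ := hD.cthickening.measure_lt_top.ne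
  have hdiff : volume.real (Metric.cthickening (t / 2) D \ D) < ε / 2 := by
    apply measureReal_sdiff_lt_of_lt_add hDm (Metric.self_subset_cthickening D) _ _ hth_fin
    rw [measureReal_def, measureReal_def]
    have h3 := (ENNReal.toReal_lt_toReal hth_fin (by finiteness)).2 hδ₂
    rwa [ENNReal.toReal_add hDfin ENNReal.ofReal_ne_top, ENNReal.toReal_ofReal (by positivity)] at h3
  refine ⟨min (δ₁ / 2) (t / 4), by positivity, ?_⟩
  intro δ hδ hδle Z P hP
  have h2δ₁ : 2 * δ ≤ δ₁ := by have := min_le_left (δ₁ / 2) (t / 4); linarith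
  have h2δt : 2 * δ ≤ t / 2 := by have := min_le_right (δ₁ / 2) (t / 4); linarith
  have hFint : IntegrableOn F D volume := hF.integrableOn_compact hD
  have hκint : IntegrableOn (fun _ : EuclideanSpace ℝ (Fin 2) => κ) D volume :=
    integrableOn_const hDfin
  have hFκint : IntegrableOn (fun x => F x + κ) D volume := hFint.add hκint
  -- per-cell estimate
  have hcell : ∀ z ∈ Z, δ ^ 2 * F (P z) ≤
      (∫ x in cell δ z ∩ D, (F x + κ)) + volume.real (cell δ z \ D) := by
    intro z hz
    obtain ⟨hPD, hPc⟩ := hP z hz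
    have hsplit : volume.real (cell δ z ∩ D) + volume.real (cell δ z \ D) = δ ^ 2 := by
      rw [measureReal_inter_add_sdiff hDm (volume_cell_ne_top δ hδ z), real_volume_cell δ hδ z]
    have hconst : volume.real (cell δ z ∩ D) * F (P z) ≤ ∫ x in cell δ z ∩ D, (F x + κ) := by
      have hm : MeasurableSet (cell δ z ∩ D) := (measurableSet_cell δ z).inter hDm
      have hfin' : volume (cell δ z ∩ D) ≠ ⊤ :=
        measure_ne_top_of_subset Set.inter_subset_right hDfin
      have hc : ∫ _ in cell δ z ∩ D, F (P z) = volume.real (cell δ z ∩ D) * F (P z) := by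
        rw [setIntegral_const, smul_eq_mul]
      rw [← hc]
      apply setIntegral_mono_on (integrableOn_const hfin')
        (hFκint.mono_set Set.inter_subset_right) hm
      intro x hx
      have hd : dist x (P z) ≤ δ₁ := by
        rw [dist_eq_norm]; exact (norm_sub_le_of_mem_cell hx.1 hPc).trans h2δ₁
      have h5 := hδ₁F x hx.2 (P z) hPD hd
      rw [Real.dist_eq] at h5
      have h6 := (abs_le.1 h5).1
      linarith
    have h0 := hF0 (P z) hPD
    have h1 := hF1 (P z) hPD
    have hnn : 0 ≤ volume.real (cell δ z \ D) := measureReal_nonneg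
    calc δ ^ 2 * F (P z) = volume.real (cell δ z ∩ D) * F (P z)
          + volume.real (cell δ z \ D) * F (P z) := by rw [← hsplit]; ring
      _ ≤ (∫ x in cell δ z ∩ D, (F x + κ)) + volume.real (cell δ z \ D) :=
          add_le_add hconst (mul_le_of_le_one_right hnn h1)
  -- sum
  have hsum1 : ∑ z ∈ Z, ∫ x in cell δ z ∩ D, (F x + κ) =
      ∫ x in ⋃ z ∈ Z, (cell δ z ∩ D), (F x + κ) := by
    rw [integral_biUnion_finset]
    · intro z _; exact (measurableSet_cell δ z).inter hDm
    · intro z _ z' _ hne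
      exact (cell_disjoint hδ hne).mono Set.inter_subset_left Set.inter_subset_left
    · intro z _; exact hFκint.mono_set Set.inter_subset_right
  have hsum2 : ∫ x in ⋃ z ∈ Z, (cell δ z ∩ D), (F x + κ) ≤ ∫ x in D, (F x + κ) := by
    apply setIntegral_mono_set hFκint
    · rw [Filter.EventuallyLE, ae_restrict_iff' hDm]
      exact Filter.Eventually.of_forall (fun x hx => by
        have := hF0 x hx
        simp only [Pi.zero_apply]; linarith)
    · exact (Set.iUnion₂_subset fun z _ => Set.inter_subset_right).eventuallyLE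
  have hsum3 : ∫ x in D, (F x + κ) = (∫ x in D, F x) + κ * vD := by
    rw [integral_add hFint hκint, setIntegral_const, smul_eq_mul, mul_comm]
  have hsum4 : ∑ z ∈ Z, volume.real (cell δ z \ D) ≤ ε / 2 := by
    have e1 : ∑ z ∈ Z, volume.real (cell δ z \ D) = volume.real (⋃ z ∈ Z, (cell δ z \ D)) :=
      (measureReal_biUnion_finset
        (fun z _ z' _ hne => (cell_disjoint hδ hne).mono Set.sdiff_subset Set.sdiff_subset)
        (fun z _ => (measurableSet_cell δ z).diff hDm)
        (fun z _ => measure_ne_top_of_subset Set.sdiff_subset (volume_cell_ne_top δ hδ z))).symm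
    have e2 : (⋃ z ∈ Z, (cell δ z \ D)) ⊆ Metric.cthickening (t / 2) D \ D := by
      intro x hx
      simp only [Set.mem_iUnion] at hx
      obtain ⟨z, hz, hxz, hxD⟩ := hx
      exact ⟨Metric.cthickening_mono h2δt D (cell_subset_cthickening (hP z hz) hxz), hxD⟩
    rw [e1]
    exact (measureReal_mono e2 (measure_ne_top_of_subset Set.sdiff_subset hth_fin)).trans hdiff.le
  calc ∑ z ∈ Z, δ ^ 2 * F (P z)
      ≤ ∑ z ∈ Z, ((∫ x in cell δ z ∩ D, (F x + κ)) + volume.real (cell δ z \ D)) :=
        Finset.sum_le_sum hcell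
    _ = (∑ z ∈ Z, ∫ x in cell δ z ∩ D, (F x + κ)) + ∑ z ∈ Z, volume.real (cell δ z \ D) :=
        Finset.sum_add_distrib
    _ ≤ ((∫ x in D, F x) + κ * vD) + ε / 2 := by
        rw [hsum1]; exact add_le_add (hsum2.trans hsum3.le) hsum4
    _ ≤ (∫ p in D, F p) + ε := by linarith

end Crest.Agent.S0326.Helper58
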