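import Mathlib

/-!
# Counting lemma for rotated square grids (row 211, package P6 / S0326)

`count_le`: if the closed balls of radius `2 r` around the points
`p₀ + (r t.1) e + (r t.2) f` (`t` in a finite set `T` of integer pairs, `e, f` an orthonormal
frame of the plane) all lie in `S`, then `#T * r² ≤ volume S`.

Proof: the half-open squares `p₀ + r (t.1 + [0,1)) e + r (t.2 + [0,1)) f` are pairwise
disjoint, measurable, of volume `r²`, and contained in the balls.
-/

namespace Crest.Agent.S0326.Helper64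

open MeasureTheory
open scoped ENNReal RealInnerProductSpace

local notation "E2" => EuclideanSpace ℝ (Fin 2)

theorem orthonormal_pair (e f : E2) (he : ‖e‖ = 1) (hf : ‖f‖ = 1) (hef : inner ℝ e f = 0) :
    Orthonormal ℝ ![e, f] := by
  rw [orthonormal_iff_ite]
  intro i j
  fin_cases i <;> fin_cases j
  · simp [he]
  · simpa using hef
  · simpa [real_inner_comm] using hef
  · simp [hf]

/-- The orthonormal basis `(e, f)` of the plane. -/
noncomputable def frame (e f : E2) (he : ‖e‖ = 1) (hf : ‖f‖ = 1) (hef : inner ℝ e f = 0) :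
    OrthonormalBasis (Fin 2) ℝ E2 :=
  (basisOfOrthonormalOfCardEqFinrank (orthonormal_pair e f he hf hef) (by simp)).toOrthonormalBasis
    (by
      rw [coe_basisOfOrthonormalOfCardEqFinrank]
      exact orthonormal_pair e f he hf hef)

theorem frame_coe (e f : E2) (he : ‖e‖ = 1) (hf : ‖f‖ = 1) (hef : inner ℝ e f = 0) :
    (frame e f he hf hef : Fin 2 → E2) = ![e, f] := by
  unfold frame
  rw [Module.Basis.coe_toOrthonormalBasis, coe_basisOfOrthonormalOfCardEqFinrank]

theorem frame_zero (e f : E2) (he : ‖e‖ = 1) (hf : ‖f‖ = 1) (hef : inner ℝ e f = 0) :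
    frame e f he hf hef 0 = e := by
  rw [frame_coe]; rfl

theorem frame_one (e f : E2) (he : ‖e‖ = 1) (hf : ‖f‖ = 1) (hef : inner ℝ e f = 0) :
    frame e f he hf hef 1 = f := by
  rw [frame_coe]; rfl

/-- Norm squared in an orthonormal frame of the plane. -/
theorem norm_sq_frame (e f : E2) (he : ‖e‖ = 1) (hf : ‖f‖ = 1) (hef : inner ℝ e f = 0) (x : E2) :
    ‖x‖ ^ 2 = (inner ℝ e x) ^ 2 + (inner ℝ f x) ^ 2 := by
  have h := (frame e f he hf hef).sum_sq_inner_right x
  rw [Fin.sum_univ_two, frame_zero, frame_one] at h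
  exact h.symm

/-- Coordinates of a point w.r.t. the frame `(e, f)` based at `p₀`. -/
noncomputable def coords (e f : E2) (he : ‖e‖ = 1) (hf : ‖f‖ = 1) (hef : inner ℝ e f = 0)
    (p₀ : E2) (p : E2) : Fin 2 → ℝ :=
  WithLp.ofLp ((frame e f he hf hef).repr (p - p₀))

theorem coords_zero (e f : E2) (he : ‖e‖ = 1) (hf : ‖f‖ = 1) (hef : inner ℝ e f = 0)
    (p₀ p : E2) : coords e f he hf hef p₀ p 0 = inner ℝ e (p - p₀) := by
  unfold coords
  rw [OrthonormalBasis.repr_apply_apply, frame_zero]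

theorem coords_one (e f : E2) (he : ‖e‖ = 1) (hf : ‖f‖ = 1) (hef : inner ℝ e f = 0)
    (p₀ p : E2) : coords e f he hf hef p₀ p 1 = inner ℝ f (p - p₀) := by
  unfold coords
  rw [OrthonormalBasis.repr_apply_apply, frame_one]

theorem coords_measurePreserving (e f : E2) (he : ‖e‖ = 1) (hf : ‖f‖ = 1)
    (hef : inner ℝ e f = 0) (p₀ : E2) :
    MeasurePreserving (coords e f he hf hef p₀) volume volume := by
  have h1 : MeasurePreserving (fun p : E2 => p - p₀) volume volume :=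
    measurePreserving_sub_right volume p₀
  have h2 := (frame e f he hf hef).measurePreserving_repr
  have h3 := PiLp.volume_preserving_ofLp (Fin 2)
  exact h3.comp (h2.comp h1)

/-- The box `∏ [r tᵢ, r tᵢ + r)` in coordinates. -/
def box (r : ℝ) (t : ℤ × ℤ) : Set (Fin 2 → ℝ) :=
  Set.pi Set.univ (fun i => Set.Ico (r * (![(t.1 : ℝ), (t.2 : ℝ)] i))
    (r * (![(t.1 : ℝ), (t.2 : ℝ)] i) + r))

theorem measurableSet_box (r : ℝ) (t : ℤ × ℤ) : MeasurableSet (box r t) :=
  MeasurableSet.univ_pi (fun _ => measurableSet_Ico)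

theorem volume_box (r : ℝ) (hr : 0 < r) (t : ℤ × ℤ) :
    volume (box r t) = ENNReal.ofReal (r ^ 2) := by
  unfold box
  rw [Real.volume_pi_Ico, Fin.prod_univ_two]
  simp only [add_sub_cancel_left]
  rw [← ENNReal.ofReal_mul hr.le, sq]

theorem mem_box_iff (r : ℝ) (t : ℤ × ℤ) (x : Fin 2 → ℝ) :
    x ∈ box r t ↔ (r * t.1 ≤ x 0 ∧ x 0 < r * t.1 + r) ∧ (r * t.2 ≤ x 1 ∧ x 1 < r * t.2 + r) := by
  unfold box
  simp [Set.mem_pi, Fin.forall_fin_two]

/-- The half-open square cell attached to the lattice point `t`. -/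
def cell (e f : E2) (he : ‖e‖ = 1) (hf : ‖f‖ = 1) (hef : inner ℝ e f = 0) (p₀ : E2) (r : ℝ)
    (t : ℤ × ℤ) : Set E2 :=
  coords e f he hf hef p₀ ⁻¹' box r t

theorem measurableSet_cell (e f : E2) (he : ‖e‖ = 1) (hf : ‖f‖ = 1) (hef : inner ℝ e f = 0)
    (p₀ : E2) (r : ℝ) (t : ℤ × ℤ) : MeasurableSet (cell e f he hf hef p₀ r t) :=
  (coords_measurePreserving e f he hf hef p₀).measurable (measurableSet_box r t)

theorem volume_cell (e f : E2) (he : ‖e‖ = 1) (hf : ‖f‖ = 1) (hef : inner ℝ e f = 0)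
    (p₀ : E2) (r : ℝ) (hr : 0 < r) (t : ℤ × ℤ) :
    volume (cell e f he hf hef p₀ r t) = ENNReal.ofReal (r ^ 2) := by
  unfold cell
  rw [(coords_measurePreserving e f he hf hef p₀).measure_preimage
    (measurableSet_box r t).nullMeasurableSet, volume_box r hr t]

theorem mem_cell_iff (e f : E2) (he : ‖e‖ = 1) (hf : ‖f‖ = 1) (hef : inner ℝ e f = 0)
    (p₀ : E2) (r : ℝ) (t : ℤ × ℤ) (p : E2) :
    p ∈ cell e f he hf hef p₀ r t ↔
      (r * t.1 ≤ inner ℝ e (p - p₀) ∧ inner ℝ e (p - p₀) < r * t.1 + r) ∧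
      (r * t.2 ≤ inner ℝ f (p - p₀) ∧ inner ℝ f (p - p₀) < r * t.2 + r) := by
  unfold cell
  rw [Set.mem_preimage, mem_box_iff, coords_zero, coords_one]

theorem int_eq_of_Ico (r : ℝ) (hr : 0 < r) (a b : ℤ) (x : ℝ)
    (h1 : r * a ≤ x) (h2 : x < r * a + r) (h3 : r * b ≤ x) (h4 : x < r * b + r) : a = b := by
  have hab : (a : ℝ) < b + 1 := by
    have : r * a < r * (b + 1) := by nlinarith
    exact lt_of_mul_lt_mul_left this hr.le
  have hba : (b : ℝ) < a + 1 := by
    have : r * b < r * (a + 1) := by nlinarith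
    exact lt_of_mul_lt_mul_left this hr.le
  have hab' : a < b + 1 := by exact_mod_cast hab
  have hba' : b < a + 1 := by exact_mod_cast hba
  omega

theorem cell_disjoint (e f : E2) (he : ‖e‖ = 1) (hf : ‖f‖ = 1) (hef : inner ℝ e f = 0)
    (p₀ : E2) (r : ℝ) (hr : 0 < r) (t t' : ℤ × ℤ) (htt : t ≠ t') :
    Disjoint (cell e f he hf hef p₀ r t) (cell e f he hf hef p₀ r t') := by
  rw [Set.disjoint_left]
  intro p hp hp'
  rw [mem_cell_iff] at hp hp'
  apply htt
  have h1 := int_eq_of_Ico r hr t.1 t'.1 _ hp.1.1 hp.1.2 hp'.1.1 hp'.1.2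
  have h2 := int_eq_of_Ico r hr t.2 t'.2 _ hp.2.1 hp.2.2 hp'.2.1 hp'.2.2
  exact Prod.ext h1 h2

theorem cell_subset_closedBall (e f : E2) (he : ‖e‖ = 1) (hf : ‖f‖ = 1) (hef : inner ℝ e f = 0)
    (p₀ : E2) (r : ℝ) (hr : 0 < r) (t : ℤ × ℤ) :
    cell e f he hf hef p₀ r t ⊆
      Metric.closedBall (p₀ + (r * t.1) • e + (r * t.2) • f) (2 * r) := by
  intro p hp
  rw [mem_cell_iff] at hp
  rw [Metric.mem_closedBall, dist_eq_norm]
  have hee : inner ℝ e e = 1 := by rw [real_inner_self_eq_norm_sq, he]; norm_num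
  have hff : inner ℝ f f = 1 := by rw [real_inner_self_eq_norm_sq, hf]; norm_num
  have hfe : inner ℝ f e = 0 := by rw [real_inner_comm]; exact hef
  have hd : p - (p₀ + (r * t.1) • e + (r * t.2) • f)
      = (p - p₀) - (r * t.1) • e - (r * t.2) • f := by abel
  have h1 : inner ℝ e (p - (p₀ + (r * t.1) • e + (r * t.2) • f))
      = inner ℝ e (p - p₀) - r * t.1 := by
    rw [hd, inner_sub_right, inner_sub_right, inner_smul_right, inner_smul_right, hee, hef]
    ring
  have h2 : inner ℝ f (p - (p₀ + (r * t.1) • e + (r * t.2) • f))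
      = inner ℝ f (p - p₀) - r * t.2 := by
    rw [hd, inner_sub_right, inner_sub_right, inner_smul_right, inner_smul_right, hff, hfe]
    ring
  have hn := norm_sq_frame e f he hf hef (p - (p₀ + (r * t.1) • e + (r * t.2) • f))
  rw [h1, h2] at hn
  have hsq : ‖p - (p₀ + (r * t.1) • e + (r * t.2) • f)‖ ^ 2 ≤ (2 * r) ^ 2 := by
    rw [hn]
    nlinarith [hp.1.1, hp.1.2, hp.2.1, hp.2.2]
  exact abs_le_of_sq_le_sq' hsq (by positivity) |>.2

/-- **Counting lemma.** If the closed balls of radius `2 r` around the points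
`p₀ + (r t.1) e + (r t.2) f`, `t ∈ T`, all lie in `S`, then `#T * r² ≤ volume S`. -/
theorem count_le (e f : E2) (he : ‖e‖ = 1) (hf : ‖f‖ = 1) (hef : inner ℝ e f = 0) (p₀ : E2)
    (r : ℝ) (hr : 0 < r) (T : Finset (ℤ × ℤ)) (S : Set E2)
    (hT : ∀ t ∈ T, Metric.closedBall (p₀ + (r * t.1) • e + (r * t.2) • f) (2 * r) ⊆ S) :
    (T.card : ℝ≥0∞) * ENNReal.ofReal (r ^ 2) ≤ volume S := by
  have hsub : (⋃ t ∈ T, cell e f he hf hef p₀ r t) ⊆ S := by
    intro p hp
    simp only [Set.mem_iUnion] at hp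
    obtain ⟨t, ht, hpt⟩ := hp
    exact hT t ht (cell_subset_closedBall e f he hf hef p₀ r hr t hpt)
  have hdisj : Set.PairwiseDisjoint (T : Set (ℤ × ℤ)) (cell e f he hf hef p₀ r) := by
    intro t _ t' _ htt
    exact cell_disjoint e f he hf hef p₀ r hr t t' htt
  have hvol : volume (⋃ t ∈ T, cell e f he hf hef p₀ r t)
      = (T.card : ℝ≥0∞) * ENNReal.ofReal (r ^ 2) := by
    rw [measure_biUnion_finset hdisj (fun t _ => measurableSet_cell e f he hf hef p₀ r t)]
    rw [Finset.sum_congr rfl (fun t _ => volume_cell e f he hf hef p₀ r hr t)]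
    rw [Finset.sum_const, nsmul_eq_mul]
  rw [← hvol]
  exact measure_mono hsub

end Crest.Agent.S0326.Helper64
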