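import Mathlib
import Crest.Agent.Lib.S0326.Helper58Calc
import Crest.Agent.Lib.S0326.Helper58Grid
import Crest.Agent.Lib.S0326.Helper58Riemann
import Crest.Agent.Lib.S0326.Helper56Local
import Crest.Agent.Lib.S0326.Helper64Count

set_option autoImplicit false
open MeasureTheory
open scoped ENNReal

namespace Crest.Agent.S0326

namespace Helper58

/-- Reindexing a finite family over a `Finset` by `Fin k`. -/
theorem of_finset {ι : Type} (S : Finset ι) (c a b g : ι → EuclideanSpace ℝ (Fin 2))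
    (D : Set (EuclideanSpace ℝ (Fin 2)))
    (V : EuclideanSpace ℝ (Fin 2) → EuclideanSpace ℝ (Fin 2)) (L h bound : ℝ)
    (h1 : ∀ i ∈ S, a i ≠ 0 ∧ ‖b i‖ = ‖a i‖ ∧ inner ℝ (a i) (b i) = 0)
    (h2 : ∀ p ∈ D, ∀ s : ℝ, |s| ≤ L → ∃ i ∈ S, ∃ x ∈ Set.Icc (0 : ℝ) 1, ∃ y ∈ Set.Icc (0 : ℝ) 1,
        p + s • V p = c i + x • a i + y • b i + s • g i)
    (h3 : ∑ i ∈ S, ‖a i‖ ^ 2 / Real.sqrt (1 + (g i 0) ^ 2 + h ^ 2 * (g i 1) ^ 2) ≤ bound) :
    ∃ (k : ℕ) (c a b g : Fin k → EuclideanSpace ℝ (Fin 2)),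
      (∀ i, a i ≠ 0 ∧ ‖b i‖ = ‖a i‖ ∧ inner ℝ (a i) (b i) = 0) ∧
      {z : ℝ × EuclideanSpace ℝ (Fin 2) | ∃ p ∈ D, abs z.1 ≤ L ∧ z.2 = p + z.1 • V p} ⊆
        ⋃ i, {z : ℝ × EuclideanSpace ℝ (Fin 2) | ∃ x ∈ Set.Icc (0 : ℝ) 1, ∃ y ∈ Set.Icc (0 : ℝ) 1,
          z.2 = c i + x • a i + y • b i + z.1 • g i} ∧
      ∑ i, ‖a i‖ ^ 2 / Real.sqrt (1 + (g i 0) ^ 2 + h ^ 2 * (g i 1) ^ 2) ≤ bound := by
  classical
  refine ⟨S.card, fun n => c (S.equivFin.symm n).1, fun n => a (S.equivFin.symm n).1,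
    fun n => b (S.equivFin.symm n).1, fun n => g (S.equivFin.symm n).1, ?_, ?_, ?_⟩
  · intro n; exact h1 _ (S.equivFin.symm n).2
  · rintro ⟨s, ξ⟩ ⟨p, hp, hs, hξ⟩
    obtain ⟨i, hi, x, hx, y, hy, heq⟩ := h2 p hp s hs
    simp only [Set.mem_iUnion]
    refine ⟨S.equivFin ⟨i, hi⟩, x, hx, y, hy, ?_⟩
    simp only [Equiv.symm_apply_apply]
    simp only at hξ
    rw [hξ]; exact heq
  · have hsum : ∑ n : Fin S.card, ‖a (S.equivFin.symm n).1‖ ^ 2 /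
        Real.sqrt (1 + (g (S.equivFin.symm n).1 0) ^ 2 + h ^ 2 * (g (S.equivFin.symm n).1 1) ^ 2)
        = ∑ i ∈ S, ‖a i‖ ^ 2 / Real.sqrt (1 + (g i 0) ^ 2 + h ^ 2 * (g i 1) ^ 2) := by
      rw [← Finset.sum_coe_sort S
        (fun i => ‖a i‖ ^ 2 / Real.sqrt (1 + (g i 0) ^ 2 + h ^ 2 * (g i 1) ^ 2))]
      exact Equiv.sum_comp S.equivFin.symm
        (fun x : S => ‖a x.1‖ ^ 2 / Real.sqrt (1 + (g x.1 0) ^ 2 + h ^ 2 * (g x.1 1) ^ 2))
    rw [hsum]; exact h3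

lemma abs_le_norm_frame {e f : EuclideanSpace ℝ (Fin 2)} (he : ‖e‖ = 1) (hf : ‖f‖ = 1)
    (hef : inner ℝ e f = 0) (x y : ℝ) :
    |x| ≤ ‖x • e + y • f‖ ∧ |y| ≤ ‖x • e + y • f‖ := by
  have h1 : inner ℝ (x • e + y • f) e = x := by
    rw [inner_add_left, inner_smul_left, inner_smul_left, real_inner_self_eq_norm_sq, he,
      real_inner_comm, hef]
    simp
  have h2 : inner ℝ (x • e + y • f) f = y := by
    rw [inner_add_left, inner_smul_left, inner_smul_left, real_inner_self_eq_norm_sq, hf, hef]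
    simp
  constructor
  · calc |x| = |inner ℝ (x • e + y • f) e| := by rw [h1]
      _ ≤ ‖x • e + y • f‖ * ‖e‖ := abs_real_inner_le_norm _ _
      _ = ‖x • e + y • f‖ := by rw [he, mul_one]
  · calc |y| = |inner ℝ (x • e + y • f) f| := by rw [h2]
      _ ≤ ‖x • e + y • f‖ * ‖f‖ := abs_real_inner_le_norm _ _
      _ = ‖x • e + y • f‖ := by rw [hf, mul_one]

lemma tile_count (e f : EuclideanSpace ℝ (Fin 2)) (he : ‖e‖ = 1) (hf : ‖f‖ = 1)
    (hef : inner ℝ e f = 0) (P : EuclideanSpace ℝ (Fin 2)) (δ r K : ℝ) (hδ : 0 < δ) (hr : 0 < r)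
    (hK : 0 ≤ K) (z : ℤ × ℤ) (D : Set (EuclideanSpace ℝ (Fin 2))) (T : Finset (ℤ × ℤ))
    (hT : ∀ t ∈ T, ∃ p ∈ D ∩ cell δ z,
      ‖(p - P) - ((r * t.1) • e + (r * t.2) • f)‖ ≤ K * r) :
    (T.card : ℝ) * r ^ 2 ≤ (δ + 2 * (K * r + 2 * r)) ^ 2 := by
  have h1 := Helper64.count_le e f he hf hef P r hr T (box δ (K * r + 2 * r) z) (by
    intro t ht
    obtain ⟨p, hp, hnorm⟩ := hT t ht
    apply closedBall_subset_box hp.2
    have e1 : P + (r * (t.1 : ℝ)) • e + (r * (t.2 : ℝ)) • f - p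
        = -((p - P) - ((r * (t.1 : ℝ)) • e + (r * (t.2 : ℝ)) • f)) := by abel
    rw [e1, norm_neg]; exact hnorm)
  rw [volume_box δ _ (by positivity) z] at h1
  have h2 : (T.card : ℝ≥0∞) * ENNReal.ofReal (r ^ 2) = ENNReal.ofReal ((T.card : ℝ) * r ^ 2) := by
    rw [ENNReal.ofReal_mul (by positivity), ENNReal.ofReal_natCast]
  rw [h2] at h1
  exact (ENNReal.ofReal_le_ofReal_iff (by positivity)).1 h1

lemma tile_J (h : ℝ) (hh : 0 < h)
    (N : EuclideanSpace ℝ (Fin 2) →L[ℝ] EuclideanSpace ℝ (Fin 2)) (B : ℝ) (hB : ‖N‖ ≤ B)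
    (v lat : EuclideanSpace ℝ (Fin 2)) (ρ : ℝ) (hlat : ‖lat‖ ≤ ρ) :
    1 / Real.sqrt (1 + ((v + N lat) 0) ^ 2 + h ^ 2 * ((v + N lat) 1) ^ 2) ≤
      1 / Real.sqrt (1 + (v 0) ^ 2 + h ^ 2 * (v 1) ^ 2) + (1 + h) * (B * ρ) := by
  have h1 := J_le h hh (v + N lat) v
  have h2 : ‖v + N lat - v‖ ≤ B * ρ := by
    rw [add_sub_cancel_left]
    calc ‖N lat‖ ≤ ‖N‖ * ‖lat‖ := N.le_opNorm lat
      _ ≤ B * ρ := mul_le_mul hB hlat (norm_nonneg _) ((norm_nonneg _).trans hB)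
  have h3 : (1 + h) * ‖v + N lat - v‖ ≤ (1 + h) * (B * ρ) :=
    mul_le_mul_of_nonneg_left h2 (by linarith)
  linarith

end Helper58

open Helper58 in
/-- S0326: square-tile cylinder cover of a C¹ ruled set. -/
theorem main
    (D : Set (EuclideanSpace ℝ (Fin 2))) (hD : IsCompact D)
    (V : EuclideanSpace ℝ (Fin 2) → EuclideanSpace ℝ (Fin 2)) (U : Set (EuclideanSpace ℝ (Fin 2)))
    (hU : IsOpen U) (hDU : D ⊆ U) (hV : ContDiffOn ℝ 1 V U) (L h : ℝ) (hL : 0 < L) (hh : 0 < h)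
    (htr : ∀ p ∈ D, LinearMap.trace ℝ _ (fderiv ℝ V p).toLinearMap = 0)
    (hdet : ∀ p ∈ D, -(L ^ 2)⁻¹ < LinearMap.det (fderiv ℝ V p).toLinearMap ∧
      LinearMap.det (fderiv ℝ V p).toLinearMap ≤ 0)
    (ε : ℝ) (hε : 0 < ε) :
    ∃ (k : ℕ) (c a b g : Fin k → EuclideanSpace ℝ (Fin 2)),
      (∀ i, a i ≠ 0 ∧ ‖b i‖ = ‖a i‖ ∧ inner ℝ (a i) (b i) = 0) ∧
      {z : ℝ × EuclideanSpace ℝ (Fin 2) | ∃ p ∈ D, abs z.1 ≤ L ∧ z.2 = p + z.1 • V p} ⊆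
        ⋃ i, {z : ℝ × EuclideanSpace ℝ (Fin 2) | ∃ x ∈ Set.Icc (0 : ℝ) 1, ∃ y ∈ Set.Icc (0 : ℝ) 1,
          z.2 = c i + x • a i + y • b i + z.1 • g i} ∧
      ∑ i, ‖a i‖ ^ 2 / Real.sqrt (1 + (g i 0) ^ 2 + h ^ 2 * (g i 1) ^ 2) ≤
        (∫ p in D, 1 / Real.sqrt (1 + (V p 0) ^ 2 + h ^ 2 * (V p 1) ^ 2)) + ε := by
  classical
  rcases D.eq_empty_or_nonempty with hDe | hDne
  · subst hDe
    refine ⟨0, Fin.elim0, Fin.elim0, Fin.elim0, Fin.elim0, fun i => i.elim0, ?_, ?_⟩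
    · rintro z ⟨p, hp, -⟩
      exact absurd hp (Set.notMem_empty p)
    · simp [hε.le]
  obtain ⟨p₀, hp₀⟩ := hDne
  -- constants
  obtain ⟨B, κ, hB0, hκ, hBD, hκD⟩ :=
    exists_bounds D hD V U hU hDU hV L hL (fun p hp => (hdet p hp).1)
  set K : ℝ := 2 * (1 + L * B) / κ with hK
  have hK0 : 0 ≤ K := by positivity
  -- the weight F = J ∘ V
  have hVc : ContinuousOn V D := hV.continuousOn.mono hDU
  have hV0 : ContinuousOn (fun p => V p 0) D :=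
    (EuclideanSpace.proj (0 : Fin 2)).continuous.comp_continuousOn hVc
  have hV1 : ContinuousOn (fun p => V p 1) D :=
    (EuclideanSpace.proj (1 : Fin 2)).continuous.comp_continuousOn hVc
  have hpos : ∀ p : EuclideanSpace ℝ (Fin 2),
      0 < Real.sqrt (1 + (V p 0) ^ 2 + h ^ 2 * (V p 1) ^ 2) := fun p =>
    Real.sqrt_pos.2 (by positivity)
  have hFcont : ContinuousOn
      (fun p => 1 / Real.sqrt (1 + (V p 0) ^ 2 + h ^ 2 * (V p 1) ^ 2)) D := by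
    apply ContinuousOn.div continuousOn_const
    · exact Real.continuous_sqrt.comp_continuousOn
        ((continuousOn_const.add (hV0.pow 2)).add (continuousOn_const.mul (hV1.pow 2)))
    · intro p _; exact (hpos p).ne'
  have hF0 : ∀ p ∈ D, 0 ≤ 1 / Real.sqrt (1 + (V p 0) ^ 2 + h ^ 2 * (V p 1) ^ 2) :=
    fun p _ => by positivity
  have hF1 : ∀ p ∈ D, 1 / Real.sqrt (1 + (V p 0) ^ 2 + h ^ 2 * (V p 1) ^ 2) ≤ 1 := by
    intro p _
    rw [div_le_one (hpos p), Real.one_le_sqrt]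
    nlinarith [sq_nonneg (V p 0), sq_nonneg (h * V p 1)]
  set I : ℝ := ∫ p in D, 1 / Real.sqrt (1 + (V p 0) ^ 2 + h ^ 2 * (V p 1) ^ 2) with hI
  have hI0 : 0 ≤ I := setIntegral_nonneg hD.measurableSet hF0
  set W : ℝ := volume.real (Metric.cthickening 1 D) with hW
  have hW0 : 0 ≤ W := measureReal_nonneg
  -- choice of η
  obtain ⟨η, hη0, hη1, hηε⟩ : ∃ η : ℝ, 0 < η ∧ η ≤ 1 ∧
      (1 + 2 * η) ^ 2 * (1 + 2 * (K + 2) * η) ^ 2 * (I + 2 * ε / 3) ≤ I + ε := by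
    have hcont : Continuous (fun η : ℝ =>
        (1 + 2 * η) ^ 2 * (1 + 2 * (K + 2) * η) ^ 2 * (I + 2 * ε / 3)) := by fun_prop
    have h0 : (fun η : ℝ =>
        (1 + 2 * η) ^ 2 * (1 + 2 * (K + 2) * η) ^ 2 * (I + 2 * ε / 3)) 0 < I + ε := by
      simp only [mul_zero, add_zero, one_pow, one_mul]; linarith
    have hev := (hcont.tendsto 0).eventually (gt_mem_nhds h0)
    obtain ⟨t, ht, hball⟩ := Metric.eventually_nhds_iff.1 hev
    refine ⟨min 1 (t / 2), by positivity, min_le_left _ _, (hball ?_).le⟩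
    rw [Real.dist_eq, sub_zero, abs_of_pos (by positivity)]
    exact (min_le_right _ _).trans_lt (by linarith)
  -- modulus
  set ω : ℝ := η ^ 2 / (2 * L) with hω
  have hωpos : 0 < ω := by positivity
  obtain ⟨δ₁, hδ₁, hmod⟩ := c1_modulus D hD V U hU hDU hV ω hωpos
  obtain ⟨δ₂, hδ₂, hriem⟩ := riemann_sum_le D hD _ hFcont hF0 hF1 (ε / 3) (by positivity)
  set C₁ : ℝ := (1 + h) * B * (2 + K) * W with hC₁
  have hC₁0 : 0 ≤ C₁ := by positivity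
  obtain ⟨δ, hδ0, hδ_half, hδ_mod, hδ_riem, hδ_C⟩ : ∃ δ : ℝ, 0 < δ ∧ δ ≤ 1 / 2 ∧ 2 * δ ≤ δ₁ ∧
      δ ≤ δ₂ ∧ C₁ * δ ≤ ε / 3 := by
    refine ⟨min (min (1 / 2) (δ₁ / 2)) (min δ₂ (ε / (3 * (C₁ + 1)))), by positivity, ?_, ?_, ?_, ?_⟩
    · exact (min_le_left _ _).trans (min_le_left _ _)
    · have := (min_le_left (min (1 / 2) (δ₁ / 2)) (min δ₂ (ε / (3 * (C₁ + 1))))).trans
        (min_le_right _ _)
      linarith
    · exact (min_le_right _ _).trans (min_le_left _ _)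
    · have h1 : min (min (1 / 2) (δ₁ / 2)) (min δ₂ (ε / (3 * (C₁ + 1)))) ≤ ε / (3 * (C₁ + 1)) :=
        (min_le_right _ _).trans (min_le_right _ _)
      have h2 : C₁ * (ε / (3 * (C₁ + 1))) ≤ ε / 3 := by
        rw [mul_div_assoc', div_le_div_iff₀ (by positivity) (by norm_num)]
        nlinarith
      exact (mul_le_mul_of_nonneg_left h1 hC₁0).trans h2
  set r : ℝ := η * δ with hr
  have hr0 : 0 < r := by positivity
  set m : ℝ := η * r with hm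
  have hm0 : 0 ≤ m := by positivity
  -- cells and base points
  obtain ⟨Z, hZ⟩ := exists_cells D hD δ hδ0
  have hPex : ∀ z : ℤ × ℤ, ∃ P : EuclideanSpace ℝ (Fin 2), P ∈ D ∧ (z ∈ Z → P ∈ cell δ z) := by
    intro z
    by_cases hz : z ∈ Z
    · obtain ⟨P, hP⟩ := (hZ z).1 hz
      exact ⟨P, hP.1, fun _ => hP.2⟩
    · exact ⟨p₀, hp₀, fun hz' => absurd hz' hz⟩
  choose P hPD hPc using hPex
  -- frames
  choose e f he hf hef hcov using fun z : ℤ × ℤ =>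
    Helper56.local_cover L hL (fderiv ℝ V (P z)) (htr _ (hPD z)) (hdet _ (hPD z)).2 κ hκ
      (hκD _ (hPD z)) B (hBD _ (hPD z))
  -- tiles
  set M : ℤ := ⌈2 / η + K⌉ with hM
  let Tset : ℤ × ℤ → Finset (ℤ × ℤ) := fun z =>
    (Finset.Icc (-M) M ×ˢ Finset.Icc (-M) M).filter (fun t => ∃ p ∈ D ∩ cell δ z,
      ‖(p - P z) - ((r * (t.1 : ℝ)) • e z + (r * (t.2 : ℝ)) • f z)‖ ≤ K * r)
  have hTset : ∀ z t, t ∈ Tset z → ∃ p ∈ D ∩ cell δ z,
      ‖(p - P z) - ((r * (t.1 : ℝ)) • e z + (r * (t.2 : ℝ)) • f z)‖ ≤ K * r := by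
    intro z t ht
    exact (Finset.mem_filter.1 ht).2
  -- norm of the lattice vector
  have hlat : ∀ z ∈ Z, ∀ t ∈ Tset z,
      ‖(r * (t.1 : ℝ)) • e z + (r * (t.2 : ℝ)) • f z‖ ≤ 2 * δ + K * r := by
    intro z hz t ht
    obtain ⟨p, hp, hnorm⟩ := hTset z t ht
    have h1 : ‖p - P z‖ ≤ 2 * δ := norm_sub_le_of_mem_cell hp.2 (hPc z hz)
    calc ‖(r * (t.1 : ℝ)) • e z + (r * (t.2 : ℝ)) • f z‖
        = ‖(p - P z) - ((p - P z) - ((r * (t.1 : ℝ)) • e z + (r * (t.2 : ℝ)) • f z))‖ := by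
          congr 1; abel
      _ ≤ ‖p - P z‖ + ‖(p - P z) - ((r * (t.1 : ℝ)) • e z + (r * (t.2 : ℝ)) • f z)‖ :=
          norm_sub_le _ _
      _ ≤ 2 * δ + K * r := add_le_add h1 hnorm
  apply of_finset (Z.sigma Tset)
    (fun x => P x.1 + ((r * (x.2.1 : ℝ) - m) • e x.1 + (r * (x.2.2 : ℝ) - m) • f x.1))
    (fun x => (r + 2 * m) • e x.1) (fun x => (r + 2 * m) • f x.1)
    (fun x => V (P x.1) + fderiv ℝ V (P x.1) ((r * (x.2.1 : ℝ)) • e x.1 + (r * (x.2.2 : ℝ)) • f x.1))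
  · -- squares
    intro x _
    have hrm : 0 < r + 2 * m := by positivity
    refine ⟨?_, ?_, ?_⟩
    · intro h0
      have h1 : ‖(r + 2 * m) • e x.1‖ = 0 := by rw [h0, norm_zero]
      rw [norm_smul, he, mul_one, Real.norm_eq_abs, abs_of_pos hrm] at h1
      linarith
    · rw [norm_smul, norm_smul, he, hf]
    · rw [inner_smul_left, inner_smul_right, hef]; simp
  · -- covering
    intro p hp s hs
    have hz : cellIdx δ p ∈ Z := (hZ _).2 ⟨p, hp, mem_cell_idx hδ0 p⟩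
    set z := cellIdx δ p with hzdef
    have hpc : p ∈ cell δ z := mem_cell_idx hδ0 p
    have hq : ‖p - P z‖ ≤ 2 * δ := norm_sub_le_of_mem_cell hpc (hPc z hz)
    have herr := hmod (P z) (hPD z) p hp (hq.trans hδ_mod)
    have hw : ‖s • (V p - V (P z) - fderiv ℝ V (P z) (p - P z))‖ ≤ m := by
      rw [norm_smul, Real.norm_eq_abs]
      calc |s| * ‖V p - V (P z) - fderiv ℝ V (P z) (p - P z)‖
          ≤ L * (ω * ‖p - P z‖) := mul_le_mul hs herr (norm_nonneg _) hL.le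
        _ ≤ L * (ω * (2 * δ)) := by
            apply mul_le_mul_of_nonneg_left _ hL.le
            exact mul_le_mul_of_nonneg_left hq hωpos.le
        _ = m := by
            rw [hm, hr, hω]; field_simp
    obtain ⟨i, j, x, y, hx, hy, heq, hnorm⟩ := hcov z r hr0 m hm0 (p - P z)
      (s • (V p - V (P z) - fderiv ℝ V (P z) (p - P z))) s hs hw
    have hnorm' : ‖(p - P z) - ((r * (i : ℝ)) • e z + (r * (j : ℝ)) • f z)‖ ≤ K * r := by
      rw [hK]; exact hnorm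
    have hlatn : ‖(r * (i : ℝ)) • e z + (r * (j : ℝ)) • f z‖ ≤ 2 * δ + K * r := by
      calc ‖(r * (i : ℝ)) • e z + (r * (j : ℝ)) • f z‖
          = ‖(p - P z) - ((p - P z) - ((r * (i : ℝ)) • e z + (r * (j : ℝ)) • f z))‖ := by
            congr 1; abel
        _ ≤ ‖p - P z‖ + ‖(p - P z) - ((r * (i : ℝ)) • e z + (r * (j : ℝ)) • f z)‖ :=
            norm_sub_le _ _
        _ ≤ 2 * δ + K * r := add_le_add hq hnorm'
    have hbd : ∀ n : ℤ, |r * (n : ℝ)| ≤ 2 * δ + K * r → -M ≤ n ∧ n ≤ M := by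
      intro n hn
      have h1 : |(n : ℝ)| ≤ 2 / η + K := by
        rw [abs_mul, abs_of_pos hr0] at hn
        have h2 : |(n : ℝ)| ≤ (2 * δ + K * r) / r := by
          rw [le_div_iff₀ hr0]; linarith
        have h3 : (2 * δ + K * r) / r = 2 / η + K := by
          rw [hr]; field_simp
        rwa [h3] at h2
      have h4 : 2 / η + K ≤ (M : ℝ) := Int.le_ceil _
      rw [abs_le] at h1
      constructor
      · have : ((-M : ℤ) : ℝ) ≤ (n : ℝ) := by push_cast; linarith [h1.1]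
        exact_mod_cast this
      · have : (n : ℝ) ≤ (M : ℝ) := by linarith [h1.2]
        exact_mod_cast this
    have hfr := abs_le_norm_frame (he z) (hf z) (hef z) (r * (i : ℝ)) (r * (j : ℝ))
    have hi := hbd i (hfr.1.trans hlatn)
    have hj := hbd j (hfr.2.trans hlatn)
    have hmemT : (i, j) ∈ Tset z := by
      refine Finset.mem_filter.2 ⟨?_, p, ⟨hp, hpc⟩, hnorm'⟩
      rw [Finset.mem_product, Finset.mem_Icc, Finset.mem_Icc]
      exact ⟨hi, hj⟩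
    refine ⟨⟨z, (i, j)⟩, Finset.mem_sigma.2 ⟨hz, hmemT⟩, x, hx, y, hy, ?_⟩
    have e1 : P z + ((r * (i : ℝ) - m) • e z + (r * (j : ℝ) - m) • f z)
          + x • ((r + 2 * m) • e z) + y • ((r + 2 * m) • f z)
          + s • (V (P z) + fderiv ℝ V (P z) ((r * (i : ℝ)) • e z + (r * (j : ℝ)) • f z))
        = P z + ((p - P z) + s • fderiv ℝ V (P z) (p - P z)
            + s • (V p - V (P z) - fderiv ℝ V (P z) (p - P z))) + s • V (P z) := by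
      rw [heq, smul_add]; abel
    show p + s • V p = P z + ((r * (i : ℝ) - m) • e z + (r * (j : ℝ) - m) • f z)
          + x • ((r + 2 * m) • e z) + y • ((r + 2 * m) • f z)
          + s • (V (P z) + fderiv ℝ V (P z) ((r * (i : ℝ)) • e z + (r * (j : ℝ)) • f z))
    rw [e1, smul_sub, smul_sub]; abel
  · -- cost
    set κ₁ : ℝ := (1 + h) * (B * (2 * δ + K * r)) with hκ₁
    have hκ₁0 : 0 ≤ κ₁ := by positivity
    set A : ℝ := (1 + 2 * η) ^ 2 * (1 + 2 * (K + 2) * η) ^ 2 with hA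
    have hA0 : 0 ≤ A := by positivity
    -- per tile
    have hstep1 : ∀ x ∈ Z.sigma Tset,
        ‖(r + 2 * m) • e x.1‖ ^ 2 / Real.sqrt (1 +
          ((V (P x.1) + fderiv ℝ V (P x.1) ((r * (x.2.1 : ℝ)) • e x.1 + (r * (x.2.2 : ℝ)) • f x.1)) 0) ^ 2
          + h ^ 2 *
          ((V (P x.1) + fderiv ℝ V (P x.1) ((r * (x.2.1 : ℝ)) • e x.1 + (r * (x.2.2 : ℝ)) • f x.1)) 1) ^ 2)
        ≤ (r + 2 * m) ^ 2 *
          (1 / Real.sqrt (1 + (V (P x.1) 0) ^ 2 + h ^ 2 * (V (P x.1) 1) ^ 2) + κ₁) := by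
      intro x hx
      obtain ⟨hxZ, hxT⟩ := Finset.mem_sigma.1 hx
      have hn : ‖(r + 2 * m) • e x.1‖ = r + 2 * m := by
        rw [norm_smul, he, mul_one, Real.norm_eq_abs, abs_of_pos (by positivity)]
      rw [hn, div_eq_mul_one_div]
      apply mul_le_mul_of_nonneg_left _ (by positivity)
      exact tile_J h hh (fderiv ℝ V (P x.1)) B (hBD _ (hPD x.1)) (V (P x.1)) _ _
        (hlat x.1 hxZ x.2 hxT)
    -- count
    have hcount : ∀ z ∈ Z, ((Tset z).card : ℝ) * r ^ 2 ≤ (δ + 2 * (K * r + 2 * r)) ^ 2 :=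
      fun z _ => tile_count (e z) (f z) (he z) (hf z) (hef z) (P z) δ r K hδ0 hr0 hK0 z D (Tset z)
        (hTset z)
    have hstep3 : ∀ z ∈ Z, ((Tset z).card : ℝ) * ((r + 2 * m) ^ 2 *
          (1 / Real.sqrt (1 + (V (P z) 0) ^ 2 + h ^ 2 * (V (P z) 1) ^ 2) + κ₁))
        ≤ A * (δ ^ 2 * (1 / Real.sqrt (1 + (V (P z) 0) ^ 2 + h ^ 2 * (V (P z) 1) ^ 2)) + κ₁ * δ ^ 2) := by
      intro z hz
      have hFz := hF0 (P z) (hPD z)
      have e1 : (r + 2 * m) ^ 2 = r ^ 2 * (1 + 2 * η) ^ 2 := by rw [hm]; ring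
      have e2 : (δ + 2 * (K * r + 2 * r)) ^ 2 = δ ^ 2 * (1 + 2 * (K + 2) * η) ^ 2 := by
        rw [hr]; ring
      have h1 := hcount z hz
      rw [e2] at h1
      calc ((Tset z).card : ℝ) * ((r + 2 * m) ^ 2 *
            (1 / Real.sqrt (1 + (V (P z) 0) ^ 2 + h ^ 2 * (V (P z) 1) ^ 2) + κ₁))
          = (((Tset z).card : ℝ) * r ^ 2) * ((1 + 2 * η) ^ 2 *
            (1 / Real.sqrt (1 + (V (P z) 0) ^ 2 + h ^ 2 * (V (P z) 1) ^ 2) + κ₁)) := by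
            rw [e1]; ring
        _ ≤ (δ ^ 2 * (1 + 2 * (K + 2) * η) ^ 2) * ((1 + 2 * η) ^ 2 *
            (1 / Real.sqrt (1 + (V (P z) 0) ^ 2 + h ^ 2 * (V (P z) 1) ^ 2) + κ₁)) :=
            mul_le_mul_of_nonneg_right h1 (by positivity)
        _ = A * (δ ^ 2 * (1 / Real.sqrt (1 + (V (P z) 0) ^ 2 + h ^ 2 * (V (P z) 1) ^ 2))
            + κ₁ * δ ^ 2) := by rw [hA]; ring
    have hR := hriem δ hδ0 hδ_riem Z P (fun z hz => ⟨hPD z, hPc z hz⟩)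
    have hCard := card_mul_le D hD δ hδ0 hδ_half Z P (fun z hz => ⟨hPD z, hPc z hz⟩)
    have hκW : κ₁ * ((Z.card : ℝ) * δ ^ 2) ≤ ε / 3 := by
      have h1 : κ₁ * ((Z.card : ℝ) * δ ^ 2) ≤ κ₁ * W := mul_le_mul_of_nonneg_left hCard hκ₁0
      have h2 : κ₁ * W ≤ C₁ * δ := by
        have h3 : 2 * δ + K * r ≤ (2 + K) * δ := by
          rw [hr]
          nlinarith [mul_nonneg (mul_nonneg hK0 hδ0.le) (sub_nonneg.2 hη1)]
        have h4 : κ₁ ≤ (1 + h) * (B * ((2 + K) * δ)) := by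
          rw [hκ₁]
          apply mul_le_mul_of_nonneg_left _ (by linarith)
          exact mul_le_mul_of_nonneg_left h3 hB0
        calc κ₁ * W ≤ (1 + h) * (B * ((2 + K) * δ)) * W := mul_le_mul_of_nonneg_right h4 hW0
          _ = C₁ * δ := by rw [hC₁]; ring
      linarith
    calc ∑ x ∈ Z.sigma Tset,
          ‖(r + 2 * m) • e x.1‖ ^ 2 / Real.sqrt (1 +
          ((V (P x.1) + fderiv ℝ V (P x.1) ((r * (x.2.1 : ℝ)) • e x.1 + (r * (x.2.2 : ℝ)) • f x.1)) 0) ^ 2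
          + h ^ 2 *
          ((V (P x.1) + fderiv ℝ V (P x.1) ((r * (x.2.1 : ℝ)) • e x.1 + (r * (x.2.2 : ℝ)) • f x.1)) 1) ^ 2)
        ≤ ∑ x ∈ Z.sigma Tset, (r + 2 * m) ^ 2 *
          (1 / Real.sqrt (1 + (V (P x.1) 0) ^ 2 + h ^ 2 * (V (P x.1) 1) ^ 2) + κ₁) :=
          Finset.sum_le_sum hstep1
      _ = ∑ z ∈ Z, ((Tset z).card : ℝ) * ((r + 2 * m) ^ 2 *
          (1 / Real.sqrt (1 + (V (P z) 0) ^ 2 + h ^ 2 * (V (P z) 1) ^ 2) + κ₁)) := by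
          rw [Finset.sum_sigma]
          apply Finset.sum_congr rfl
          intro z _
          simp only [Finset.sum_const, nsmul_eq_mul]
      _ ≤ ∑ z ∈ Z, A * (δ ^ 2 * (1 / Real.sqrt (1 + (V (P z) 0) ^ 2 + h ^ 2 * (V (P z) 1) ^ 2))
            + κ₁ * δ ^ 2) := Finset.sum_le_sum hstep3
      _ = A * ((∑ z ∈ Z, δ ^ 2 * (1 / Real.sqrt (1 + (V (P z) 0) ^ 2 + h ^ 2 * (V (P z) 1) ^ 2)))
            + κ₁ * ((Z.card : ℝ) * δ ^ 2)) := by
          rw [← Finset.mul_sum, Finset.sum_add_distrib, Finset.sum_const, nsmul_eq_mul]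
          ring
      _ ≤ A * ((I + ε / 3) + ε / 3) :=
          mul_le_mul_of_nonneg_left (add_le_add hR hκW) hA0
      _ ≤ I + ε := by
          have : (I + ε / 3) + ε / 3 = I + 2 * ε / 3 := by ring
          rw [this, hA]; exact hηε

end Crest.Agent.S0326
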